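import Vale.Agent.P358.LogRep

namespace Vale.Agent.P358

open Matrix
open scoped ComplexOrder

section
variable {n : Type} [Fintype n] [DecidableEq n]

/-- coordinates in the eigenbasis -/
noncomputable def eigCoord {H : Matrix n n ℂ} (hH : H.IsHermitian) (w : n → ℂ) : n → ℂ :=
  (hH.eigenvectorUnitary : Matrix n n ℂ)ᴴ *ᵥ w

theorem eigU_mul {H : Matrix n n ℂ} (hH : H.IsHermitian) :
    (hH.eigenvectorUnitary : Matrix n n ℂ) * (hH.eigenvectorUnitary : Matrix n n ℂ)ᴴ = 1 := by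
  have := Unitary.coe_mul_star_self hH.eigenvectorUnitary
  rwa [Unitary.coe_star, star_eq_conjTranspose] at this

theorem eigU_mul' {H : Matrix n n ℂ} (hH : H.IsHermitian) :
    (hH.eigenvectorUnitary : Matrix n n ℂ)ᴴ * (hH.eigenvectorUnitary : Matrix n n ℂ) = 1 :=
  mul_eq_one_comm.mp (eigU_mul hH)

theorem eig_spectral {H : Matrix n n ℂ} (hH : H.IsHermitian) :
    H = (hH.eigenvectorUnitary : Matrix n n ℂ) * diagonal (fun k => (hH.eigenvalues k : ℂ))
      * (hH.eigenvectorUnitary : Matrix n n ℂ)ᴴ := by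
  have h := hH.spectral_theorem
  rw [Unitary.conjStarAlgAut_apply] at h
  exact h

theorem eigCoord_form {H : Matrix n n ℂ} (hH : H.IsHermitian) (w : n → ℂ) :
    (star w ⬝ᵥ (H *ᵥ w)).re = ∑ k, hH.eigenvalues k * ‖eigCoord hH w k‖ ^ 2 := by
  have h1 : star w ⬝ᵥ (H *ᵥ w)
      = star (eigCoord hH w) ⬝ᵥ (diagonal (fun k => (hH.eigenvalues k : ℂ)) *ᵥ eigCoord hH w) := by
    conv_lhs => rw [eig_spectral hH]
    rw [← mulVec_mulVec, ← mulVec_mulVec, dotProduct_mulVec]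
    congr 1
    rw [eigCoord, star_mulVec, conjTranspose_conjTranspose]
  rw [h1, dotProduct, Complex.re_sum]
  refine Finset.sum_congr rfl fun k _ => ?_
  rw [mulVec_diagonal, Pi.star_apply]
  have : star (eigCoord hH w k) * ((hH.eigenvalues k : ℂ) * eigCoord hH w k)
      = (hH.eigenvalues k : ℂ) * (star (eigCoord hH w k) * eigCoord hH w k) := by ring
  rw [this, Complex.re_ofReal_mul, RCLike.star_def, Complex.conj_mul']
  norm_cast

theorem eigCoord_norm {H : Matrix n n ℂ} (hH : H.IsHermitian) (w : n → ℂ) :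
    (star w ⬝ᵥ w).re = ∑ k, ‖eigCoord hH w k‖ ^ 2 := by
  have h1 : star w ⬝ᵥ w = star (eigCoord hH w) ⬝ᵥ eigCoord hH w := by
    rw [eigCoord, star_mulVec, conjTranspose_conjTranspose, ← dotProduct_mulVec, mulVec_mulVec,
      eigU_mul hH, one_mulVec]
  rw [h1, dotProduct, Complex.re_sum]
  refine Finset.sum_congr rfl fun k _ => ?_
  rw [Pi.star_apply, RCLike.star_def, Complex.conj_mul']
  norm_cast

/-- vectors with prescribed eigencoordinates -/
theorem eigCoord_mulVec {H : Matrix n n ℂ} (hH : H.IsHermitian) (c : n → ℂ) :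
    eigCoord hH ((hH.eigenvectorUnitary : Matrix n n ℂ) *ᵥ c) = c := by
  rw [eigCoord, mulVec_mulVec, eigU_mul' hH, one_mulVec]

end

/-- general counting principle -/
theorem count_le_general {n m : Type} [Fintype n] [DecidableEq n] [Fintype m] [DecidableEq m]
    {H : Matrix n n ℂ} {H' : Matrix m m ℂ} (hH : H.IsHermitian) (hH' : H'.IsHermitian)
    (S : Matrix m n ℂ) (s x : ℝ)
    (h : ∀ v : n → ℂ, s * (star v ⬝ᵥ v).re < (star v ⬝ᵥ (H *ᵥ v)).re →
      x * (star (S *ᵥ v) ⬝ᵥ (S *ᵥ v)).re < (star (S *ᵥ v) ⬝ᵥ (H' *ᵥ (S *ᵥ v))).re) :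
    (Finset.univ.filter (fun k => s < hH.eigenvalues k)).card ≤
      (Finset.univ.filter (fun k => x < hH'.eigenvalues k)).card := by
  classical
  -- extension by zero
  let ext : ({k // s < hH.eigenvalues k} → ℂ) →ₗ[ℂ] (n → ℂ) :=
    { toFun := fun c k => if hk : s < hH.eigenvalues k then c ⟨k, hk⟩ else 0
      map_add' := fun c c' => by
        ext k; by_cases hk : s < hH.eigenvalues k <;> simp [hk]
      map_smul' := fun t c => by
        ext k; by_cases hk : s < hH.eigenvalues k <;> simp [hk] }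
  let f : ({k // s < hH.eigenvalues k} → ℂ) →ₗ[ℂ] ({k // x < hH'.eigenvalues k} → ℂ) :=
    (LinearMap.funLeft ℂ ℂ (fun k : {k // x < hH'.eigenvalues k} => (k : m))).comp
      ((Matrix.mulVecLin ((hH'.eigenvectorUnitary : Matrix m m ℂ)ᴴ)).comp
        ((Matrix.mulVecLin S).comp
          ((Matrix.mulVecLin (hH.eigenvectorUnitary : Matrix n n ℂ)).comp ext)))
  have hf : Function.Injective f := by
    rw [injective_iff_map_eq_zero]
    intro c hc
    by_contra hne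
    obtain ⟨k0, hk0⟩ : ∃ k0, c k0 ≠ 0 := by
      by_contra hall
      push Not at hall
      exact hne (funext hall)
    obtain ⟨v, hv⟩ : ∃ v : n → ℂ, v = (hH.eigenvectorUnitary : Matrix n n ℂ) *ᵥ ext c := ⟨_, rfl⟩
    have hcoord : eigCoord hH v = ext c := by rw [hv, eigCoord_mulVec]
    have hlt : s * (star v ⬝ᵥ v).re < (star v ⬝ᵥ (H *ᵥ v)).re := by
      rw [eigCoord_form hH, eigCoord_norm hH, hcoord, Finset.mul_sum]
      refine Finset.sum_lt_sum (fun k _ => ?_) ⟨k0, Finset.mem_univ _, ?_⟩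
      · by_cases hk : s < hH.eigenvalues k
        · exact mul_le_mul_of_nonneg_right hk.le (by positivity)
        · have : ext c k = 0 := by simp [ext, hk]
          rw [this]; simp
      · have : ext c k0 = c k0 := by simp [ext, k0.2]
        rw [this]
        exact mul_lt_mul_of_pos_right k0.2 (by positivity)
    have hlt' := h v hlt
    obtain ⟨w, hw⟩ : ∃ w : m → ℂ, w = S *ᵥ v := ⟨_, rfl⟩
    rw [← hw] at hlt'
    have hzero : ∀ k, x < hH'.eigenvalues k → eigCoord hH' w k = 0 := by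
      intro k hk
      have := congrFun hc ⟨k, hk⟩
      simp only [f, LinearMap.comp_apply, LinearMap.funLeft_apply, Matrix.mulVecLin_apply,
        Pi.zero_apply] at this
      rw [eigCoord, hw, hv]
      exact this
    rw [eigCoord_form hH', eigCoord_norm hH', Finset.mul_sum] at hlt'
    refine absurd hlt' (not_lt.mpr ?_)
    refine Finset.sum_le_sum fun k _ => ?_
    by_cases hk : x < hH'.eigenvalues k
    · rw [hzero k hk]; simp
    · exact mul_le_mul_of_nonneg_right (not_lt.mp hk) (by positivity)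
  have hrank := LinearMap.finrank_le_finrank_of_injective hf
  rw [Module.finrank_fintype_fun_eq_card, Module.finrank_fintype_fun_eq_card] at hrank
  rwa [Fintype.card_subtype, Fintype.card_subtype] at hrank

theorem herm_A {n m : Type} [Fintype n] [DecidableEq n] [Fintype m] [DecidableEq m]
    (Y : Matrix n m ℂ) {d : Matrix n n ℂ} (hd : d.PosSemidef) {s : ℝ} (hs : 0 < s) :
    (Yᴴ * ((s : ℂ) • (1 : Matrix n n ℂ) + d)⁻¹ * Y).PosSemidef := by
  have h : ((s : ℂ) • (1 : Matrix n n ℂ) + d).PosDef :=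
    PosDef.add_posSemidef (PosDef.one.smul (by exact_mod_cast hs)) hd
  exact h.inv.posSemidef.conjTranspose_mul_mul_same Y

theorem herm_T {n m : Type} [Fintype n] [DecidableEq n] [Fintype m] [DecidableEq m]
    (Y : Matrix n m ℂ) {d : Matrix n n ℂ} (hd : d.PosSemidef) (x : ℝ) :
    ((((x⁻¹ : ℝ) : ℂ) • (Y * Yᴴ)) - d).IsHermitian := by
  refine IsHermitian.sub ?_ hd.isHermitian
  rw [IsHermitian, conjTranspose_smul, RCLike.star_def, Complex.conj_ofReal,
    (isHermitian_mul_conjTranspose_self Y).eq]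

/-- counting eigenvalues -/
theorem count_le {n m : Type} [Fintype n] [DecidableEq n] [Fintype m] [DecidableEq m]
    (Y : Matrix n m ℂ) {d : Matrix n n ℂ} (hd : d.PosSemidef) {s x : ℝ} (hs : 0 < s) (hx : 0 < x)
    (hA : (Yᴴ * ((s : ℂ) • (1 : Matrix n n ℂ) + d)⁻¹ * Y).IsHermitian)
    (hT : ((((x⁻¹ : ℝ) : ℂ) • (Y * Yᴴ)) - d).IsHermitian) :
    (Finset.univ.filter (fun k => s < hT.eigenvalues k)).card ≤
      (Finset.univ.filter (fun k => x < hA.eigenvalues k)).card := by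
  refine count_le_general hT hA Yᴴ s x fun v hv => ?_
  obtain ⟨Q, hQ⟩ : ∃ Q : Matrix n n ℂ, Q = (s : ℂ) • (1 : Matrix n n ℂ) + d := ⟨_, rfl⟩
  have hQpd : Q.PosDef := by
    rw [hQ]; exact PosDef.add_posSemidef (PosDef.one.smul (by exact_mod_cast hs)) hd
  have hQu : IsUnit Q.det := isUnit_iff_ne_zero.mpr hQpd.det_pos.ne'
  have hQh : Qᴴ = Q := hQpd.isHermitian
  obtain ⟨u, hu⟩ : ∃ u : m → ℂ, u = Yᴴ *ᵥ v := ⟨_, rfl⟩
  obtain ⟨w, hw⟩ : ∃ w : n → ℂ, w = Q⁻¹ *ᵥ (Y *ᵥ u) := ⟨_, rfl⟩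
  have hQw : Q *ᵥ w = Y *ᵥ u := by
    rw [hw, mulVec_mulVec, Matrix.mul_nonsing_inv _ hQu, one_mulVec]
  rw [← hQ, ← hu]
  -- elementary pairings
  have e1 : star v ⬝ᵥ (Y *ᵥ u) = star u ⬝ᵥ u := by
    rw [dotProduct_mulVec, hu, star_mulVec, conjTranspose_conjTranspose]
  have e2 : star w ⬝ᵥ (Q *ᵥ v) = star u ⬝ᵥ u := by
    rw [dotProduct_mulVec, ← hQh, ← star_mulVec, hQw, star_mulVec, ← dotProduct_mulVec, hu]
  have e3 : star w ⬝ᵥ (Q *ᵥ w) = star u ⬝ᵥ ((Yᴴ * Q⁻¹ * Y) *ᵥ u) := by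
    have hQi : (Q⁻¹)ᴴ = Q⁻¹ := hQpd.inv.isHermitian
    rw [hQw]
    conv_lhs => rw [hw]
    rw [star_mulVec, hQi, star_mulVec, ← dotProduct_mulVec, ← dotProduct_mulVec, mulVec_mulVec,
      mulVec_mulVec]
  have hpos : 0 ≤ (star (w - (x : ℂ) • v) ⬝ᵥ (Q *ᵥ (w - (x : ℂ) • v))).re := by
    have := hQpd.posSemidef.dotProduct_mulVec_nonneg (w - (x : ℂ) • v)
    exact (Complex.nonneg_iff.mp this).1
  have hexp : star (w - (x : ℂ) • v) ⬝ᵥ (Q *ᵥ (w - (x : ℂ) • v))
      = star w ⬝ᵥ (Q *ᵥ w) - (x : ℂ) * (star v ⬝ᵥ (Q *ᵥ w)) - (x : ℂ) * (star w ⬝ᵥ (Q *ᵥ v))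
        + (x : ℂ) * (x : ℂ) * (star v ⬝ᵥ (Q *ᵥ v)) := by
    have hsx : star ((x : ℂ) • v) = (x : ℂ) • star v := by
      rw [star_smul, RCLike.star_def, Complex.conj_ofReal]
    rw [star_sub, hsx, mulVec_sub, mulVec_smul, sub_dotProduct, dotProduct_sub, dotProduct_sub,
      smul_dotProduct, smul_dotProduct, dotProduct_smul, dotProduct_smul]
    simp only [smul_eq_mul]
    ring
  have hQv : (star v ⬝ᵥ (Q *ᵥ v)).re = s * (star v ⬝ᵥ v).re + (star v ⬝ᵥ (d *ᵥ v)).re := by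
    rw [hQ, add_mulVec, dotProduct_add, Complex.add_re, smul_mulVec, one_mulVec, dotProduct_smul,
      smul_eq_mul, Complex.re_ofReal_mul]
  have hTv : (star v ⬝ᵥ (((((x⁻¹ : ℝ) : ℂ) • (Y * Yᴴ)) - d) *ᵥ v)).re
      = x⁻¹ * (star u ⬝ᵥ u).re - (star v ⬝ᵥ (d *ᵥ v)).re := by
    rw [sub_mulVec, dotProduct_sub, Complex.sub_re, smul_mulVec, dotProduct_smul, smul_eq_mul,
      Complex.re_ofReal_mul, ← mulVec_mulVec, ← hu, e1]
  rw [hTv] at hv
  have hkey : x * (star v ⬝ᵥ (Q *ᵥ v)).re < (star u ⬝ᵥ u).re := by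
    rw [hQv]
    have h1 : s * (star v ⬝ᵥ v).re + (star v ⬝ᵥ (d *ᵥ v)).re < x⁻¹ * (star u ⬝ᵥ u).re := by
      linarith
    calc x * (s * (star v ⬝ᵥ v).re + (star v ⬝ᵥ (d *ᵥ v)).re)
        < x * (x⁻¹ * (star u ⬝ᵥ u).re) := mul_lt_mul_of_pos_left h1 hx
      _ = (star u ⬝ᵥ u).re := by rw [← mul_assoc, mul_inv_cancel₀ hx.ne', one_mul]
  rw [hexp, e3, hQw, e1, e2] at hpos
  simp only [Complex.add_re, Complex.sub_re, Complex.re_ofReal_mul, mul_assoc] at hpos
  nlinarith [mul_lt_mul_of_pos_left hkey hx]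

end Vale.Agent.P358
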