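import Vale.Agent.P358.K.CountA

namespace Vale.Agent.P358

open Matrix
open scoped ComplexOrder

theorem trace_min {n : Type} [Fintype n] [DecidableEq n] {T d : Matrix n n ℂ}
    (hT : T.IsHermitian) (hd : d.PosSemidef) (hTd : (T - d).IsHermitian) (S : ℝ) :
    ∑ k, min (hT.eigenvalues k) S - d.trace.re ≤ ∑ k, min (hTd.eigenvalues k) S := by
  obtain ⟨U, hU⟩ : ∃ U : Matrix n n ℂ, U = hT.eigenvectorUnitary := ⟨_, rfl⟩
  obtain ⟨W, hW⟩ : ∃ W : Matrix n n ℂ, W = hTd.eigenvectorUnitary := ⟨_, rfl⟩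
  have hU1 : U * Uᴴ = 1 := by rw [hU]; exact eigU_mul hT
  have hW1 : W * Wᴴ = 1 := by rw [hW]; exact eigU_mul hTd
  have hU2 : Uᴴ * U = 1 := mul_eq_one_comm.mp hU1
  have hW2 : Wᴴ * W = 1 := mul_eq_one_comm.mp hW1
  obtain ⟨O, hO⟩ : ∃ O : Matrix n n ℂ, O = Uᴴ * W := ⟨_, rfl⟩
  have hO1 : O * Oᴴ = 1 := by
    rw [hO, conjTranspose_mul, conjTranspose_conjTranspose]
    calc Uᴴ * W * (Wᴴ * U) = Uᴴ * (W * Wᴴ) * U := by simp only [mul_assoc]
      _ = 1 := by rw [hW1, mul_one, hU2]
  have hO2 : Oᴴ * O = 1 := mul_eq_one_comm.mp hO1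
  have hrow : ∀ j, ∑ k, ‖O j k‖ ^ 2 = 1 := by
    intro j
    have h := congrArg (fun M : Matrix n n ℂ => (M j j).re) hO1
    simp only [Matrix.mul_apply, conjTranspose_apply, Matrix.one_apply_eq, Complex.one_re,
      Complex.re_sum] at h
    rw [← h]
    refine Finset.sum_congr rfl fun k _ => ?_
    rw [RCLike.star_def, Complex.mul_conj']
    norm_cast
  have hcol : ∀ k, ∑ j, ‖O j k‖ ^ 2 = 1 := by
    intro k
    have h := congrArg (fun M : Matrix n n ℂ => (M k k).re) hO2
    simp only [Matrix.mul_apply, conjTranspose_apply, Matrix.one_apply_eq, Complex.one_re,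
      Complex.re_sum] at h
    rw [← h]
    refine Finset.sum_congr rfl fun j _ => ?_
    rw [RCLike.star_def, Complex.conj_mul']
    norm_cast
  -- diagonal entries
  have hTW : ∀ k, (Wᴴ * T * W) k k = ((∑ j, ‖O j k‖ ^ 2 * hT.eigenvalues j : ℝ) : ℂ) := by
    intro k
    have h1 : Wᴴ * T * W = Oᴴ * diagonal (fun j => (hT.eigenvalues j : ℂ)) * O := by
      conv_lhs => rw [eig_spectral hT]
      rw [← hU, hO, conjTranspose_mul, conjTranspose_conjTranspose]
      simp only [mul_assoc]
    rw [h1, Matrix.mul_apply]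
    push_cast
    refine Finset.sum_congr rfl fun j _ => ?_
    rw [Matrix.mul_diagonal, conjTranspose_apply, RCLike.star_def]
    have : (starRingEnd ℂ) (O j k) * (hT.eigenvalues j : ℂ) * O j k
        = ((starRingEnd ℂ) (O j k) * O j k) * (hT.eigenvalues j : ℂ) := by ring
    rw [this, Complex.conj_mul']
  have hTdW : ∀ k, (Wᴴ * (T - d) * W) k k = (hTd.eigenvalues k : ℂ) := by
    intro k
    have h1 : Wᴴ * (T - d) * W = diagonal (fun j => (hTd.eigenvalues j : ℂ)) := by
      conv_lhs => rw [eig_spectral hTd]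
      rw [← hW]
      calc Wᴴ * (W * diagonal (fun j => (hTd.eigenvalues j : ℂ)) * Wᴴ) * W
          = (Wᴴ * W) * diagonal (fun j => (hTd.eigenvalues j : ℂ)) * (Wᴴ * W) := by
            simp only [mul_assoc]
        _ = _ := by rw [hW2, one_mul, mul_one]
    rw [h1, diagonal_apply_eq]
  have hdW : ∀ k, 0 ≤ ((Wᴴ * d * W) k k).re := by
    intro k
    have := (hd.conjTranspose_mul_mul_same W).diag_nonneg (i := k)
    exact (Complex.nonneg_iff.mp this).1
  have hle : ∀ k, hTd.eigenvalues k ≤ ∑ j, ‖O j k‖ ^ 2 * hT.eigenvalues j := by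
    intro k
    have h1 : (Wᴴ * (T - d) * W) k k = (Wᴴ * T * W) k k - (Wᴴ * d * W) k k := by
      rw [mul_sub, sub_mul, Matrix.sub_apply]
    rw [hTdW, hTW] at h1
    have h2 := congrArg Complex.re h1
    rw [Complex.ofReal_re, Complex.sub_re, Complex.ofReal_re] at h2
    linarith [hdW k]
  -- positive parts
  have hpos : ∑ k, max (hTd.eigenvalues k - S) 0 ≤ ∑ j, max (hT.eigenvalues j - S) 0 := by
    calc ∑ k, max (hTd.eigenvalues k - S) 0
        ≤ ∑ k, ∑ j, ‖O j k‖ ^ 2 * max (hT.eigenvalues j - S) 0 := by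
          refine Finset.sum_le_sum fun k _ => max_le ?_ ?_
          · calc hTd.eigenvalues k - S
                ≤ ∑ j, ‖O j k‖ ^ 2 * hT.eigenvalues j - (∑ j, ‖O j k‖ ^ 2) * S := by
                  rw [hcol k, one_mul]; linarith [hle k]
              _ = ∑ j, ‖O j k‖ ^ 2 * (hT.eigenvalues j - S) := by
                  rw [Finset.sum_mul, ← Finset.sum_sub_distrib]
                  refine Finset.sum_congr rfl fun j _ => by ring
              _ ≤ _ := by
                  refine Finset.sum_le_sum fun j _ => ?_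
                  exact mul_le_mul_of_nonneg_left (le_max_left _ _) (by positivity)
          · exact Finset.sum_nonneg fun j _ => mul_nonneg (by positivity) (le_max_right _ _)
      _ = ∑ j, ∑ k, ‖O j k‖ ^ 2 * max (hT.eigenvalues j - S) 0 := Finset.sum_comm
      _ = ∑ j, max (hT.eigenvalues j - S) 0 := by
          refine Finset.sum_congr rfl fun j _ => ?_
          rw [← Finset.sum_mul, hrow j, one_mul]
  have hmin : ∀ t : ℝ, min t S = t - max (t - S) 0 := by
    intro t
    rcases le_total t S with h | h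
    · rw [min_eq_left h, max_eq_right (by linarith)]; ring
    · rw [min_eq_right h, max_eq_left (by linarith)]; ring
  have htT : T.trace.re = ∑ k, hT.eigenvalues k := by
    rw [hT.trace_eq_sum_eigenvalues]; simp
  have htTd : (T - d).trace.re = ∑ k, hTd.eigenvalues k := by
    rw [hTd.trace_eq_sum_eigenvalues]; simp
  rw [trace_sub, Complex.sub_re, htT] at htTd
  simp only [hmin, Finset.sum_sub_distrib]
  linarith

/-- eigenvalues of a positive multiple -/
theorem sum_eig_smul {n : Type} [Fintype n] [DecidableEq n] {T : Matrix n n ℂ}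
    (hT : T.IsHermitian) (c : ℝ) (hc : 0 < c) (hcT : (((c : ℝ) : ℂ) • T).IsHermitian)
    (f : ℝ → ℝ) : ∑ k, f (hcT.eigenvalues k) = ∑ k, f (c * hT.eigenvalues k) := by
  have h1 : (((c : ℝ) : ℂ) • T).charpoly.roots
      = Multiset.map (fun k => ((c * hT.eigenvalues k : ℝ) : ℂ)) Finset.univ.val := by
    have h2 : (((c : ℝ) : ℂ) • T) = (hT.eigenvectorUnitary : Matrix n n ℂ)
        * (diagonal (fun k => ((c * hT.eigenvalues k : ℝ) : ℂ))
        * (hT.eigenvectorUnitary : Matrix n n ℂ)ᴴ) := by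
      conv_lhs => rw [eig_spectral hT]
      rw [← Matrix.smul_mul, ← Matrix.mul_smul, mul_assoc]
      congr 2
      rw [← diagonal_smul]
      congr 1
      ext k
      simp
    rw [h2, charpoly_mul_comm, mul_assoc, eigU_mul' hT, mul_one, charpoly_diagonal,
      Polynomial.roots_prod _ _ (by
        rw [Finset.prod_ne_zero_iff]
        intro k _
        exact Polynomial.X_sub_C_ne_zero _)]
    simp only [Polynomial.roots_X_sub_C]
    exact Multiset.bind_singleton _ _
  rw [hcT.roots_charpoly_eq_eigenvalues] at h1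
  have h3 := congrArg (fun M : Multiset ℂ => (Multiset.map (fun z => f z.re) M).sum) h1
  simp only [Multiset.map_map, Function.comp_def] at h3
  simpa using h3

end Vale.Agent.P358
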