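import Vale.Agent.P358.LogRep

namespace Vale.Agent.P358

open Matrix
open scoped ComplexOrder

theorem block_eq_add {n m : Type} [Fintype m]
    (X Y : Matrix n m ℂ) (b d : Matrix n n ℂ) :
    fromBlocks (X * Xᴴ + b) (X * Yᴴ) (Y * Xᴴ) (Y * Yᴴ + d) =
      fromBlocks b 0 0 d + fromRows X Y * (fromRows X Y)ᴴ := by
  rw [conjTranspose_fromRows_eq_fromCols_conjTranspose, fromRows_mul_fromCols, fromBlocks_add]
  simp [add_comm]

theorem block_diag_psd {n : Type} [Fintype n] [DecidableEq n]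
    {b d : Matrix n n ℂ} (hb : b.PosSemidef) (hd : d.PosSemidef) :
    (fromBlocks b 0 0 d).PosSemidef := by
  have h1 : (fromBlocks b 0 0 d : Matrix (n ⊕ n) (n ⊕ n) ℂ)
      = (fromCols (1 : Matrix n n ℂ) (0 : Matrix n n ℂ))ᴴ * b
          * (fromCols (1 : Matrix n n ℂ) (0 : Matrix n n ℂ)) +
        (fromCols (0 : Matrix n n ℂ) (1 : Matrix n n ℂ))ᴴ * d
          * (fromCols (0 : Matrix n n ℂ) (1 : Matrix n n ℂ)) := by
    ext (i | i) (j | j) <;> simp [Matrix.mul_apply, Matrix.one_apply]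
  rw [h1]
  exact (hb.conjTranspose_mul_mul_same _).add (hd.conjTranspose_mul_mul_same _)

theorem block_psd {n m : Type} [Fintype n] [DecidableEq n] [Fintype m] [DecidableEq m]
    (X Y : Matrix n m ℂ) {b d : Matrix n n ℂ} (hb : b.PosSemidef) (hd : d.PosSemidef) :
    (fromBlocks (X * Xᴴ + b) (X * Yᴴ) (Y * Xᴴ) (Y * Yᴴ + d)).PosSemidef := by
  rw [block_eq_add]
  refine PosSemidef.add ?_ (posSemidef_self_mul_conjTranspose _)
  exact block_diag_psd hb hd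

theorem smul_add_posDef {n : Type} [Fintype n] [DecidableEq n] {d : Matrix n n ℂ}
    (hd : d.PosSemidef) {s : ℝ} (hs : 0 < s) :
    ((s : ℂ) • (1 : Matrix n n ℂ) + d).PosDef := by
  refine PosDef.add_posSemidef ?_ hd
  exact PosDef.one.smul (by exact_mod_cast hs)

theorem det_identity {n m : Type} [Fintype n] [DecidableEq n] [Fintype m] [DecidableEq m]
    (X Y : Matrix n m ℂ) {b d : Matrix n n ℂ} (hb : b.PosSemidef) (hd : d.PosSemidef) {s : ℝ}
    (hs : 0 < s) :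
    ((s : ℂ) • (1 : Matrix (n ⊕ n) (n ⊕ n) ℂ) +
      fromBlocks (X * Xᴴ + b) (X * Yᴴ) (Y * Xᴴ) (Y * Yᴴ + d)).det =
      ((s : ℂ) • (1 : Matrix n n ℂ) + b).det * ((s : ℂ) • (1 : Matrix n n ℂ) + d).det *
      (1 + Yᴴ * ((s : ℂ) • (1 : Matrix n n ℂ) + d)⁻¹ * Y +
        Xᴴ * ((s : ℂ) • (1 : Matrix n n ℂ) + b)⁻¹ * X).det := by
  set β := (s : ℂ) • (1 : Matrix n n ℂ) + b with hβ
  set δ := (s : ℂ) • (1 : Matrix n n ℂ) + d with hδ
  have hβd : IsUnit β.det := ((smul_add_posDef hb hs).det_pos).ne'.isUnit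
  have hδd : IsUnit δ.det := ((smul_add_posDef hd hs).det_pos).ne'.isUnit
  have h1 : (s : ℂ) • (1 : Matrix (n ⊕ n) (n ⊕ n) ℂ) +
      fromBlocks (X * Xᴴ + b) (X * Yᴴ) (Y * Xᴴ) (Y * Yᴴ + d) =
      fromBlocks β 0 0 δ * (1 + fromRows (β⁻¹ * X) (δ⁻¹ * Y) * fromCols Xᴴ Yᴴ) := by
    rw [Matrix.mul_add, Matrix.mul_one, fromRows_mul_fromCols, fromBlocks_multiply,
      ← fromBlocks_one, fromBlocks_smul, fromBlocks_add, fromBlocks_add]
    simp only [Matrix.zero_mul, add_zero, zero_add, smul_zero, Matrix.mul_assoc]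
    rw [← Matrix.mul_assoc β, ← Matrix.mul_assoc β, ← Matrix.mul_assoc δ, ← Matrix.mul_assoc δ,
      Matrix.mul_nonsing_inv _ hβd, Matrix.mul_nonsing_inv _ hδd]
    simp only [Matrix.one_mul, hβ, hδ]
    congr 1 <;> abel
  rw [h1, Matrix.det_mul, Matrix.det_fromBlocks_zero₂₁, Matrix.det_one_add_mul_comm,
    fromCols_mul_fromRows]
  congr 2
  rw [Matrix.mul_assoc, Matrix.mul_assoc]
  abel

end Vale.Agent.P358
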