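import Vale.Agent.P358.K.ScalPh

namespace Vale.Agent.P358

open MeasureTheory Filter Topology

/-- the constant `P(G1)` -/
noncomputable def PG1 (p q b d : ℝ) : ℝ :=
  kk p q b d * Real.negMulLog (rt1 p q b d) + (1 - kk p q b d) * Real.negMulLog (rt2 p q b d)
    - Real.negMulLog d

noncomputable def CC (p q b d : ℝ) : ℝ :=
  (d * G1 p q b d 0 + PG1 p q b d - Real.negMulLog q) / q

variable {p q b d : ℝ}

theorem logRep_G1 (hp : 0 < p) (hq : 0 < q) (hb : 0 < b) (hd : 0 < d) :
    LogRep (G1 p q b d) 0 q (PG1 p q b d) := by
  have hr2 := rt2_pos hp hq hb hd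
  have hr1 := hr2.trans (rt_lt hp hq hb hd)
  have h := (((LogRep.log hr1.le).const_mul (kk p q b d)).add
    ((LogRep.log hr2.le).const_mul (1 - kk p q b d))).sub (LogRep.log hd.le)
  have hN : kk p q b d * 1 + (1 - kk p q b d) * 1 - 1 = 0 := by ring
  have hT : kk p q b d * rt1 p q b d + (1 - kk p q b d) * rt2 p q b d - d = q := by
    rw [kk_rt hp hq hb hd]; ring
  rw [hN, hT] at h
  exact h

theorem continuous_G1_max (hp : 0 < p) (hq : 0 < q) (hb : 0 < b) (hd : 0 < d) (y : ℝ) :
    Continuous fun s : ℝ => G1 p q b d (max (q * s / y - d) 0) := by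
  have hr2 := rt2_pos hp hq hb hd
  have hr1 := hr2.trans (rt_lt hp hq hb hd)
  have h0 : Continuous fun s : ℝ => max (q * s / y - d) 0 := by fun_prop
  have key : ∀ {x : ℝ}, 0 < x → Continuous fun s : ℝ => Real.log (max (q * s / y - d) 0 + x) := by
    intro x hx
    refine Continuous.log (h0.add continuous_const) fun s => ?_
    have := le_max_right (q * s / y - d) 0
    linarith
  unfold G1
  exact (((key hr1).const_mul _).add ((key hr2).const_mul _)).sub (key hd)

theorem Ph_div (hq : 0 < q) {y s : ℝ} (hy : 0 < y) (hs : 0 < s) :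
    Ph p q b d (y / s) = G1 p q b d (max (q * s / y - d) 0) := by
  have h1 : ¬ (y / s ≤ 0) := not_le.2 (div_pos hy hs)
  rw [Ph, if_neg h1]
  congr 3
  field_simp

/-- `Φ₁ (y / s)` -/
theorem logRep_Ph (hp : 0 < p) (hq : 0 < q) (hb : 0 < b) (hd : 0 < d) {y : ℝ} (hy : 0 ≤ y) :
    LogRep (fun s => Ph p q b d (y / s)) 0 y (Real.negMulLog y + CC p q b d * y) := by
  rcases hy.eq_or_lt with h | hy
  · rw [← h]
    simp only [zero_div, Ph_zero, Real.negMulLog_zero, mul_zero, add_zero]
    exact LogRep.zero
  have hcont := continuous_G1_max hp hq hb hd y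
  have main : LogRep (fun s => G1 p q b d (max (q * s / y - d) 0)) 0 y
      (Real.negMulLog y + CC p q b d * y) := by
    refine ⟨fun S _ => hcont.intervalIntegrable _ _, ?_⟩
    have hG := logRep_G1 hp hq hb hd
    set s0 := y * d / q with hs0
    have hs0pos : 0 < s0 := by positivity
    have hint : ∀ S, s0 ≤ S → ∫ s in (0 : ℝ)..S, G1 p q b d (max (q * s / y - d) 0) =
        (y / q) * (d * G1 p q b d 0 + ∫ u in (0 : ℝ)..(q * S / y - d), G1 p q b d u) := by
      intro S hS
      rw [← intervalIntegral.integral_add_adjacent_intervals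
        (hcont.intervalIntegrable 0 s0) (hcont.intervalIntegrable s0 S)]
      have e1 : ∫ s in (0 : ℝ)..s0, G1 p q b d (max (q * s / y - d) 0) =
          ∫ s in (0 : ℝ)..s0, G1 p q b d 0 := by
        refine intervalIntegral.integral_congr fun s hs => ?_
        rw [Set.uIcc_of_le hs0pos.le] at hs
        have h1 : q * s / y - d ≤ 0 := by
          have : q * s / y ≤ q * s0 / y := by
            have := hs.2
            gcongr
          have h2 : q * s0 / y = d := by rw [hs0]; field_simp
          linarith
        show G1 p q b d (max (q * s / y - d) 0) = G1 p q b d 0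
        rw [max_eq_right h1]
      have e2 : ∫ s in s0..S, G1 p q b d (max (q * s / y - d) 0) =
          ∫ s in s0..S, G1 p q b d ((q / y) * s - d) := by
        refine intervalIntegral.integral_congr fun s hs => ?_
        rw [Set.uIcc_of_le hS] at hs
        have h1 : 0 ≤ q * s / y - d := by
          have : q * s0 / y ≤ q * s / y := by
            have := hs.1
            gcongr
          have h2 : q * s0 / y = d := by rw [hs0]; field_simp
          linarith
        show G1 p q b d (max (q * s / y - d) 0) = G1 p q b d ((q / y) * s - d)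
        rw [max_eq_left h1]
        congr 1
        ring
      have hne : q / y ≠ 0 := (div_pos hq hy).ne'
      rw [e1, e2, intervalIntegral.integral_comp_mul_sub _ hne]
      have e3 : (q / y) * s0 - d = 0 := by rw [hs0]; field_simp; ring
      have e4 : (q / y) * S - d = q * S / y - d := by ring
      rw [e3, e4, intervalIntegral.integral_const, smul_eq_mul, smul_eq_mul, inv_div, hs0]
      field_simp
      ring
    -- limits
    have hW : Tendsto (fun S : ℝ => q * S / y - d) atTop atTop := by
      refine tendsto_atTop_add_const_right _ _ ?_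
      have : (fun S : ℝ => q * S / y) = fun S => (q / y) * S := by
        ext S; ring
      rw [this]
      exact tendsto_id.const_mul_atTop (div_pos hq hy)
    have hG2 := hG.2.comp hW
    have hlog : Tendsto (fun S : ℝ => Real.log (q / y - d / S)) atTop
        (𝓝 (Real.log (q / y - 0))) := by
      refine (Real.continuousAt_log (by rw [sub_zero]; exact (div_pos hq hy).ne')).tendsto.comp ?_
      exact tendsto_const_nhds.sub (tendsto_const_nhds.div_atTop tendsto_id)
    rw [sub_zero] at hlog
    have hlim := ((hG2.const_add (d * G1 p q b d 0)).const_mul (y / q)).add (hlog.const_mul y)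
    have hval : y / q * (d * G1 p q b d 0 + PG1 p q b d) + y * Real.log (q / y) =
        Real.negMulLog y + CC p q b d * y := by
      rw [CC, Real.log_div hq.ne' hy.ne', Real.negMulLog, Real.negMulLog]
      field_simp
      ring
    rw [hval] at hlim
    refine hlim.congr' ?_
    filter_upwards [eventually_gt_atTop s0, eventually_gt_atTop 0] with S hS hS0
    have hWpos : 0 < q * S / y - d := by
      have h1 : q * s0 / y < q * S / y := by gcongr
      have h2 : q * s0 / y = d := by rw [hs0]; field_simp
      linarith
    rw [hint S hS.le]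
    simp only [Function.comp]
    have h3 : q / y - d / S = (q * S / y - d) / S := by field_simp
    rw [h3, Real.log_div hWpos.ne' hS0.ne']
    field_simp
    ring
  exact main.congr fun s hs => (Ph_div hq hy hs).symm

theorem CC_nonpos (hp : 0 < p) (hq : 0 < q) (hb : 0 < b) (hd : 0 < d) : CC p q b d ≤ 0 := by
  have h1 := logRep_Ph hp hq hb hd (y := 1) zero_le_one
  have h2 := (LogRep.log (x := 1) zero_le_one).sub (LogRep.log (x := 0) le_rfl)
  rw [sub_self, sub_zero] at h2
  have h3 := h1.le h2 fun s hs => by
    refine (Ph_le_log hp hq hb hd (by positivity)).trans (le_of_eq ?_)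
    rw [← Real.log_div (by linarith) (by linarith)]
    congr 1
    field_simp
    ring
  simpa using h3

/-- scalar identity -/
theorem CC_add (hp : 0 < p) (hq : 0 < q) (hb : 0 < b) (hd : 0 < d) :
    CC p q b d * q + CC q p d b * p - G1 p q b d 0 * d - G1 q p d b 0 * b =
      Real.negMulLog (rt1 p q b d) + Real.negMulLog (rt2 p q b d) - Real.negMulLog p
        - Real.negMulLog q - Real.negMulLog b - Real.negMulLog d := by
  rw [CC, CC, div_mul_cancel₀ _ hq.ne', div_mul_cancel₀ _ hp.ne', PG1, PG1,
    kk_swap hp hq hb hd, rt1_swap, rt2_swap]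
  ring

end Vale.Agent.P358
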