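import Vale.Agent.P358.K.Count

namespace Vale.Agent.P358

open Matrix MeasureTheory Filter Topology
open scoped ComplexOrder

private noncomputable def stInd (a s : ℝ) : ℝ := if s < a then 1 else 0

private theorem stInd_nonneg (a s : ℝ) : 0 ≤ stInd a s := by
  unfold stInd; split_ifs <;> norm_num

private theorem stInd_anti (a : ℝ) : Antitone (stInd a) := by
  intro s t hst
  unfold stInd
  by_cases h : t < a
  · rw [if_pos h, if_pos (lt_of_le_of_lt hst h)]
  · rw [if_neg h]
    split_ifs <;> norm_num

private theorem stInd_int (a u v : ℝ) : IntervalIntegrable (stInd a) volume u v :=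
  (stInd_anti a).intervalIntegrable

private theorem stInd_integral {a S : ℝ} (ha : 0 ≤ a) (hS : 0 ≤ S) :
    ∫ s in (0 : ℝ)..S, stInd a s = min a S := by
  rcases le_total a S with h | h
  · rw [min_eq_left h, ← intervalIntegral.integral_add_adjacent_intervals (stInd_int a 0 a)
      (stInd_int a a S)]
    have h1 : ∫ s in (0 : ℝ)..a, stInd a s = ∫ _s in (0 : ℝ)..a, (1 : ℝ) :=
      intervalIntegral.integral_congr_Ioo_of_le ha (fun s hs => by
        unfold stInd; rw [if_pos hs.2])
    have h2 : ∫ s in a..S, stInd a s = ∫ _s in a..S, (0 : ℝ) :=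
      intervalIntegral.integral_congr_Ioo_of_le h (fun s hs => by
        unfold stInd; rw [if_neg (not_lt.2 hs.1.le)])
    rw [h1, h2]
    simp
  · rw [min_eq_right h]
    have h1 : ∫ s in (0 : ℝ)..S, stInd a s = ∫ _s in (0 : ℝ)..S, (1 : ℝ) :=
      intervalIntegral.integral_congr_Ioo_of_le hS (fun s hs => by
        unfold stInd; rw [if_pos (lt_of_lt_of_le hs.2 h)])
    rw [h1]
    simp

private theorem min_le_stInd_integral (a : ℝ) {S : ℝ} (hS : 0 ≤ S) :
    min a S ≤ ∫ s in (0 : ℝ)..S, stInd a s := by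
  rcases le_total 0 a with h | h
  · rw [stInd_integral h hS]
  · refine (min_le_left _ _).trans (h.trans ?_)
    exact intervalIntegral.integral_nonneg hS (fun s _ => stInd_nonneg a s)

/-- step function below Φ -/
private theorem step_below {Φ : ℝ → ℝ} (hmono : Monotone Φ) (h0 : Φ 0 = 0) {h : ℝ}
    {y : ℝ} (hy : 0 ≤ y) (M : ℕ) :
    ∑ j ∈ Finset.range M, (Φ ((j + 1 : ℕ) * h) - Φ (j * h)) *
      (if ((j + 1 : ℕ) : ℝ) * h < y then 1 else 0) ≤ Φ (min y (M * h)) ∨
    ¬ (0 < h) := by
  by_cases hh : 0 < h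
  swap
  · exact Or.inr hh
  left
  induction M with
  | zero =>
    rw [Finset.sum_range_zero, Nat.cast_zero, zero_mul, min_eq_right hy, h0]
  | succ M ih =>
    rw [Finset.sum_range_succ]
    have hMM : (M : ℝ) * h ≤ ((M + 1 : ℕ) : ℝ) * h := by
      push_cast; nlinarith
    split_ifs with hc
    · rw [min_eq_right hc.le]
      rw [min_eq_right (hMM.trans hc.le)] at ih
      linarith
    · rw [mul_zero, add_zero]
      exact ih.trans (hmono (min_le_min_left _ hMM))

/-- Φ is below the step function plus the mesh -/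
private theorem step_above {Φ : ℝ → ℝ} (h0 : Φ 0 = 0)
    (hlip : ∀ x y, y ≤ x → Φ x - Φ y ≤ x - y) {h : ℝ} (hh : 0 < h)
    {y : ℝ} (hy : 0 ≤ y) (M : ℕ) :
    ((M : ℝ) * h < y → ∑ j ∈ Finset.range M, (Φ ((j + 1 : ℕ) * h) - Φ (j * h)) *
      (if ((j + 1 : ℕ) : ℝ) * h < y then 1 else 0) = Φ (M * h)) ∧
    Φ (min y (M * h)) ≤ ∑ j ∈ Finset.range M, (Φ ((j + 1 : ℕ) * h) - Φ (j * h)) *
      (if ((j + 1 : ℕ) : ℝ) * h < y then 1 else 0) + h := by
  induction M with
  | zero =>
    constructor
    · intro _
      rw [Finset.sum_range_zero, Nat.cast_zero, zero_mul, h0]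
    · rw [Finset.sum_range_zero, Nat.cast_zero, zero_mul, min_eq_right hy, h0]
      linarith
  | succ M ih =>
    have hMM : (M : ℝ) * h < ((M + 1 : ℕ) : ℝ) * h := by
      push_cast; nlinarith
    have hMM' : ((M + 1 : ℕ) : ℝ) * h = (M : ℝ) * h + h := by
      push_cast; ring
    rw [Finset.sum_range_succ]
    by_cases hc : ((M + 1 : ℕ) : ℝ) * h < y
    · have e1 := ih.1 (hMM.trans hc)
      rw [if_pos hc, e1, mul_one]
      constructor
      · intro _; ring
      · rw [min_eq_right hc.le]; linarith
    · rw [if_neg hc, mul_zero, add_zero]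
      refine ⟨fun hcc => absurd hcc hc, ?_⟩
      rw [not_lt] at hc
      rw [min_eq_left hc]
      rcases lt_or_ge ((M : ℝ) * h) y with hM | hM
      · rw [ih.1 hM]
        have := hlip y (M * h) hM.le
        linarith
      · have := ih.2
        rwa [min_eq_left hM] at this

/-- Lower step functions. `Φ` is monotone, 1-Lipschitz, `Φ 0 = 0`, constant `C` beyond `X`. -/
theorem step_exists {n m : Type} [Fintype n] [DecidableEq n] [Fintype m] [DecidableEq m]
    (Y : Matrix n m ℂ) {d : Matrix n n ℂ} (hd : d.PosSemidef)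
    (hQ : (Y * Yᴴ).IsHermitian)
    {Φ : ℝ → ℝ} (hmono : Monotone Φ) (h0 : Φ 0 = 0)
    (hlip : ∀ x y, y ≤ x → Φ x - Φ y ≤ x - y) {C X : ℝ} (hX : 0 < X)
    (hC : ∀ x, X ≤ x → Φ x = C) {S ε : ℝ} (hS : 0 < S) (hε : 0 < ε) :
    ∃ L : ℝ → ℝ, IntervalIntegrable L volume 0 S ∧
      (∀ s : ℝ, 0 < s → ∀ hA : (Yᴴ * ((s : ℂ) • (1 : Matrix n n ℂ) + d)⁻¹ * Y).IsHermitian,
        L s ≤ ∑ k, Φ (hA.eigenvalues k)) ∧
      (∑ k, ∫ s in (0 : ℝ)..S, Φ (hQ.eigenvalues k / s)) - C * d.trace.re - ε ≤
        ∫ s in (0 : ℝ)..S, L s := by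
  obtain ⟨N', hN'⟩ := exists_nat_gt ((Fintype.card n : ℝ) * X * S / ε)
  set N : ℕ := N' + 1 with hNdef
  have hN0 : (0 : ℝ) < N := by rw [hNdef]; positivity
  have hNgt : (Fintype.card n : ℝ) * X * S / ε < N := by
    refine hN'.trans ?_
    rw [hNdef]; push_cast; linarith
  set h : ℝ := X / N with hh
  have hh0 : 0 < h := div_pos hX hN0
  have hNh : (N : ℝ) * h = X := by rw [hh]; field_simp
  have hsmall : (Fintype.card n : ℝ) * (h * S) ≤ ε := by
    rw [hh]
    rw [div_lt_iff₀ hε] at hNgt
    rw [div_mul_eq_mul_div, mul_div_assoc', div_le_iff₀ hN0]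
    nlinarith
  set x : ℕ → ℝ := fun j => ((j + 1 : ℕ) : ℝ) * h with hx
  have hx0 : ∀ j, 0 < x j := fun j => by rw [hx]; positivity
  set δ : ℕ → ℝ := fun j => Φ ((j + 1 : ℕ) * h) - Φ (j * h) with hδ
  have hδ0 : ∀ j, 0 ≤ δ j := by
    intro j
    rw [hδ]
    refine sub_nonneg.2 (hmono ?_)
    push_cast
    nlinarith
  have hδsum : ∑ j ∈ Finset.range N, δ j = C := by
    have e := Finset.sum_range_sub (fun j : ℕ => Φ ((j : ℝ) * h)) N
    simp only [Nat.cast_zero, zero_mul, h0, sub_zero, hNh] at e
    rw [hC X le_rfl] at e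
    exact e
  have hT : ∀ j, ((((x j)⁻¹ : ℝ) : ℂ) • (Y * Yᴴ) - d).IsHermitian := fun j => herm_T Y hd (x j)
  have hT' : ∀ j, ((((x j)⁻¹ : ℝ) : ℂ) • (Y * Yᴴ)).IsHermitian := by
    intro j
    have := herm_T Y (d := 0) Matrix.PosSemidef.zero (x j)
    rwa [sub_zero] at this
  have hqnn : ∀ k, 0 ≤ hQ.eigenvalues k :=
    (Matrix.posSemidef_self_mul_conjTranspose Y).eigenvalues_nonneg
  refine ⟨fun s => ∑ j ∈ Finset.range N, δ j * ∑ k, stInd ((hT j).eigenvalues k) s, ?_, ?_, ?_⟩
  · refine Antitone.intervalIntegrable ?_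
    intro s t hst
    refine Finset.sum_le_sum fun j _ => mul_le_mul_of_nonneg_left ?_ (hδ0 j)
    exact Finset.sum_le_sum fun k _ => stInd_anti _ hst
  · intro s hs hA
    have hAnn : ∀ k, 0 ≤ hA.eigenvalues k := (herm_A Y hd hs).eigenvalues_nonneg
    calc ∑ j ∈ Finset.range N, δ j * ∑ k, stInd ((hT j).eigenvalues k) s
        ≤ ∑ j ∈ Finset.range N, δ j * ∑ k, (if x j < hA.eigenvalues k then (1 : ℝ) else 0) := by
          refine Finset.sum_le_sum fun j _ => mul_le_mul_of_nonneg_left ?_ (hδ0 j)
          have hc := count_le Y hd hs (hx0 j) hA (hT j)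
          unfold stInd
          rw [Finset.sum_boole, Finset.sum_boole]
          exact_mod_cast hc
      _ = ∑ k, ∑ j ∈ Finset.range N, δ j * (if x j < hA.eigenvalues k then (1 : ℝ) else 0) := by
          simp only [Finset.mul_sum]
          exact Finset.sum_comm
      _ ≤ ∑ k, Φ (hA.eigenvalues k) := by
          refine Finset.sum_le_sum fun k _ => ?_
          rcases step_below hmono h0 (h := h) (hAnn k) N with h1 | h1
          · exact h1.trans (hmono (min_le_left _ _))
          · exact absurd hh0 h1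
  · -- integral of L
    have hintL : ∫ s in (0 : ℝ)..S, ∑ j ∈ Finset.range N,
        δ j * ∑ k, stInd ((hT j).eigenvalues k) s =
        ∑ j ∈ Finset.range N, δ j * ∑ k, ∫ s in (0 : ℝ)..S, stInd ((hT j).eigenvalues k) s := by
      rw [intervalIntegral.integral_finsetSum]
      · refine Finset.sum_congr rfl fun j _ => ?_
        rw [intervalIntegral.integral_const_mul, intervalIntegral.integral_finsetSum]
        intro k _
        exact stInd_int _ _ _
      · intro j _
        refine IntervalIntegrable.const_mul ?_ _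
        refine Antitone.intervalIntegrable ?_
        intro s t hst
        exact Finset.sum_le_sum fun k _ => stInd_anti _ hst
    have hstep1 : ∑ j ∈ Finset.range N, δ j * (∑ k, min (hQ.eigenvalues k / x j) S -
        d.trace.re) ≤ ∑ j ∈ Finset.range N, δ j *
          ∑ k, ∫ s in (0 : ℝ)..S, stInd ((hT j).eigenvalues k) s := by
      refine Finset.sum_le_sum fun j _ => mul_le_mul_of_nonneg_left ?_ (hδ0 j)
      have h1 := trace_min (hT' j) hd (hT j) S
      have h2 := sum_eig_smul hQ (x j)⁻¹ (inv_pos.2 (hx0 j)) (hT' j) (fun t => min t S)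
      have h3 : ∑ k, min (hQ.eigenvalues k / x j) S = ∑ k, min ((hT' j).eigenvalues k) S := by
        rw [h2]
        refine Finset.sum_congr rfl fun k _ => ?_
        rw [div_eq_inv_mul]
      rw [h3]
      exact h1.trans (Finset.sum_le_sum fun k _ => min_le_stInd_integral _ hS.le)
    have hstep2 : ∀ k, ∫ s in (0 : ℝ)..S, Φ (hQ.eigenvalues k / s) ≤
        ∑ j ∈ Finset.range N, δ j * min (hQ.eigenvalues k / x j) S + h * S := by
      intro k
      set q := hQ.eigenvalues k with hq
      have hq0 : 0 ≤ q := hqnn k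
      have hΦC : ∀ y, Φ y ≤ C := by
        intro y
        rcases le_total X y with h1 | h1
        · exact (hC y h1).le
        · exact (hmono h1).trans (hC X le_rfl).le
      have hint1 : IntervalIntegrable (fun s => Φ (q / s)) volume 0 S := by
        have hanti : AntitoneOn (fun s => if s ≤ 0 then C else Φ (q / s)) (Set.uIcc 0 S) := by
          intro s _ t _ hst
          dsimp only
          by_cases h1 : s ≤ 0
          · rw [if_pos h1]
            split_ifs
            · exact le_rfl
            · exact hΦC _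
          · have hs : 0 < s := not_le.1 h1
            rw [if_neg h1, if_neg (not_le.2 (hs.trans_le hst))]
            exact hmono (div_le_div_of_nonneg_left hq0 hs hst)
        refine (hanti.intervalIntegrable).congr_uIoo ?_
        intro s hs
        rw [Set.uIoo_of_le hS.le] at hs
        dsimp only
        rw [if_neg (not_le.2 hs.1)]
      have hint2 : IntervalIntegrable (fun s => ∑ j ∈ Finset.range N,
          δ j * stInd (q / x j) s + h) volume 0 S := by
        refine Antitone.intervalIntegrable ?_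
        intro s t hst
        exact add_le_add_left (Finset.sum_le_sum fun j _ =>
          mul_le_mul_of_nonneg_left (stInd_anti _ hst) (hδ0 j)) _
      have hle : ∫ s in (0 : ℝ)..S, Φ (q / s) ≤ ∫ s in (0 : ℝ)..S,
          (∑ j ∈ Finset.range N, δ j * stInd (q / x j) s + h) := by
        refine intervalIntegral.integral_mono_on_of_le_Ioo hS.le hint1 hint2 ?_
        intro s hs
        have hy : 0 ≤ q / s := div_nonneg hq0 hs.1.le
        have h1 := (step_above h0 hlip hh0 hy N).2
        rw [hNh] at h1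
        have h2 : Φ (q / s) = Φ (min (q / s) X) := by
          rcases le_total (q / s) X with h3 | h3
          · rw [min_eq_left h3]
          · rw [min_eq_right h3, hC _ h3, hC X le_rfl]
        rw [h2]
        refine h1.trans (le_of_eq ?_)
        congr 1
        refine Finset.sum_congr rfl fun j _ => ?_
        have h3 : (x j < q / s) ↔ (s < q / x j) := by
          rw [lt_div_iff₀ hs.1, lt_div_iff₀ (hx0 j), mul_comm]
        unfold stInd
        by_cases h4 : s < q / x j
        · rw [if_pos h4, if_pos (h3.2 h4)]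
        · rw [if_neg h4, if_neg (fun h5 => h4 (h3.1 h5))]
      refine hle.trans (le_of_eq ?_)
      rw [intervalIntegral.integral_add, intervalIntegral.integral_finsetSum]
      · congr 1
        · refine Finset.sum_congr rfl fun j _ => ?_
          rw [intervalIntegral.integral_const_mul,
            stInd_integral (div_nonneg hq0 (hx0 j).le) hS.le]
        · rw [intervalIntegral.integral_const, sub_zero, smul_eq_mul, mul_comm]
      · intro j _
        exact (stInd_int _ _ _).const_mul _
      · refine Antitone.intervalIntegrable ?_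
        intro s t hst
        exact Finset.sum_le_sum fun j _ =>
          mul_le_mul_of_nonneg_left (stInd_anti _ hst) (hδ0 j)
      · exact intervalIntegrable_const
    rw [hintL]
    refine le_trans ?_ hstep1
    have hs3 : ∑ k, ∫ s in (0 : ℝ)..S, Φ (hQ.eigenvalues k / s) ≤
        ∑ k, (∑ j ∈ Finset.range N, δ j * min (hQ.eigenvalues k / x j) S + h * S) :=
      Finset.sum_le_sum fun k _ => hstep2 k
    rw [Finset.sum_add_distrib, Finset.sum_const, Finset.card_univ, nsmul_eq_mul] at hs3
    have hs4 : ∑ j ∈ Finset.range N, δ j * (∑ k, min (hQ.eigenvalues k / x j) S -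
        d.trace.re) = ∑ k, ∑ j ∈ Finset.range N, δ j * min (hQ.eigenvalues k / x j) S -
          C * d.trace.re := by
      simp only [mul_sub, Finset.sum_sub_distrib]
      rw [← Finset.sum_mul, hδsum]
      congr 1
      simp only [Finset.mul_sum]
      exact Finset.sum_comm
    rw [hs4]
    linarith

end Vale.Agent.P358
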