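import Vale.Agent.P358.K.Trunc
import Vale.Agent.P358.K.Step
import Vale.Agent.P358.K.Rep
import Vale.Agent.P358.K.DetId

namespace Vale.Agent.P358

open Matrix MeasureTheory Filter Topology
open scoped ComplexOrder

/-- scalar functional of the four-edge path -/
noncomputable def J4 (p q b d : ℝ) : ℝ :=
  Real.negMulLog (rt1 p q b d) + Real.negMulLog (rt2 p q b d) - Real.negMulLog p
    - Real.negMulLog q - Real.negMulLog b - Real.negMulLog d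

section

variable {n m : Type} [Fintype n] [DecidableEq n] [Fintype m] [DecidableEq m]

/-- the comparison `log det` function of the four-edge path -/
noncomputable def gK (X Y : Matrix n m ℂ) (b d : Matrix n n ℂ) (s : ℝ) : ℝ :=
  Real.log (1 + Yᴴ * ((s : ℂ) • (1 : Matrix n n ℂ) + d)⁻¹ * Y +
        Xᴴ * ((s : ℂ) • (1 : Matrix n n ℂ) + b)⁻¹ * X).det.re

theorem logRep_gK (X Y : Matrix n m ℂ) {b d : Matrix n n ℂ} (hb : b.PosSemidef)
    (hd : d.PosSemidef) :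
    LogRep (gK X Y b d) 0 ((X * Xᴴ).trace.re + (Y * Yᴴ).trace.re)
      (trPhi (fromBlocks (X * Xᴴ + b) (X * Yᴴ) (Y * Xᴴ) (Y * Yᴴ + d)) - trPhi b - trPhi d) := by
  have h1 := ((logRep_det (block_psd X Y hb hd)).sub (logRep_det hb)).sub (logRep_det hd)
  have hN : ((Fintype.card (n ⊕ n) : ℝ) - Fintype.card n - Fintype.card n) = 0 := by
    rw [Fintype.card_sum]; push_cast; ring
  have hT : (fromBlocks (X * Xᴴ + b) (X * Yᴴ) (Y * Xᴴ) (Y * Yᴴ + d)).trace.re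
      - b.trace.re - d.trace.re = (X * Xᴴ).trace.re + (Y * Yᴴ).trace.re := by
    simp only [Matrix.trace, Matrix.diag_apply, Fintype.sum_sum_type, fromBlocks_apply₁₁,
      fromBlocks_apply₂₂, Matrix.add_apply, Finset.sum_add_distrib, Complex.add_re]
    ring
  rw [hN, hT] at h1
  refine h1.congr fun s hs => ?_
  have hβ := (smul_add_posDef hb hs).det_pos
  have hδ := (smul_add_posDef hd hs).det_pos
  have hβ1 := Complex.pos_iff.1 hβ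
  have hδ1 := Complex.pos_iff.1 hδ
  have hA : (Yᴴ * ((s : ℂ) • (1 : Matrix n n ℂ) + d)⁻¹ * Y).PosSemidef := herm_A Y hd hs
  have hB : (Xᴴ * ((s : ℂ) • (1 : Matrix n n ℂ) + b)⁻¹ * X).PosSemidef := herm_A X hb hs
  have hW := one_add_add_posDef hA hB
  have hW1 := Complex.pos_iff.1 hW.det_pos
  rw [det_identity X Y hb hd hs]
  have h2 : (((s : ℂ) • (1 : Matrix n n ℂ) + b).det * ((s : ℂ) • (1 : Matrix n n ℂ) + d).det *
      (1 + Yᴴ * ((s : ℂ) • (1 : Matrix n n ℂ) + d)⁻¹ * Y +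
        Xᴴ * ((s : ℂ) • (1 : Matrix n n ℂ) + b)⁻¹ * X).det).re =
      ((s : ℂ) • (1 : Matrix n n ℂ) + b).det.re * ((s : ℂ) • (1 : Matrix n n ℂ) + d).det.re *
      (1 + Yᴴ * ((s : ℂ) • (1 : Matrix n n ℂ) + d)⁻¹ * Y +
        Xᴴ * ((s : ℂ) • (1 : Matrix n n ℂ) + b)⁻¹ * X).det.re := by
    rw [Complex.mul_re, Complex.mul_re, ← hβ1.2, ← hδ1.2, ← hW1.2]
    ring
  rw [h2, Real.log_mul (mul_pos hβ1.1 hδ1.1).ne' hW1.1.ne', Real.log_mul hβ1.1.ne' hδ1.1.ne']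
  unfold gK
  ring

/-- the integrated inequality -/
theorem gK_int (X Y : Matrix n m ℂ) {b d : Matrix n n ℂ} (hb : b.PosSemidef) (hd : d.PosSemidef)
    (hP : (X * Xᴴ).IsHermitian) (hQ : (Y * Yᴴ).IsHermitian)
    {p₀ q₀ b₀ d₀ : ℝ} (hp₀ : 0 < p₀) (hq₀ : 0 < q₀) (hb₀ : 0 < b₀) (hd₀ : 0 < d₀)
    {S : ℝ} (hS : 0 < S) :
    (∑ k, ∫ s in (0 : ℝ)..S, Ph p₀ q₀ b₀ d₀ (hQ.eigenvalues k / s)) - G1 p₀ q₀ b₀ d₀ 0 * d.trace.re
      + ((∑ k, ∫ s in (0 : ℝ)..S, Ph q₀ p₀ d₀ b₀ (hP.eigenvalues k / s))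
        - G1 q₀ p₀ d₀ b₀ 0 * b.trace.re) ≤ ∫ s in (0 : ℝ)..S, gK X Y b d s := by
  refine le_of_forall_pos_le_add fun ε hε => ?_
  obtain ⟨L1, hL1i, hL1, hL1'⟩ := step_exists Y hd hQ (Ph_mono hp₀ hq₀ hb₀ hd₀) (Ph_zero _ _ _ _)
    (fun x y h => Ph_lip hp₀ hq₀ hb₀ hd₀ h) (div_pos hq₀ hd₀)
    (fun x h => Ph_const hp₀ hq₀ hb₀ hd₀ h) hS (half_pos hε)
  obtain ⟨L2, hL2i, hL2, hL2'⟩ := step_exists X hb hP (Ph_mono hq₀ hp₀ hd₀ hb₀) (Ph_zero _ _ _ _)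
    (fun x y h => Ph_lip hq₀ hp₀ hd₀ hb₀ h) (div_pos hp₀ hb₀)
    (fun x h => Ph_const hq₀ hp₀ hd₀ hb₀ h) hS (half_pos hε)
  have h1 : ∫ s in (0 : ℝ)..S, (L1 s + L2 s) ≤ ∫ s in (0 : ℝ)..S, gK X Y b d s := by
    refine intervalIntegral.integral_mono_on_of_le_Ioo hS.le (hL1i.add hL2i)
      ((logRep_gK X Y hb hd).1 S hS) fun s hs => ?_
    have hA := herm_A Y hd hs.1
    have hB := herm_A X hb hs.1
    exact (add_le_add (hL1 s hs.1 hA.isHermitian) (hL2 s hs.1 hB.isHermitian)).trans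
      (trunc_bound hA hB hp₀ hq₀ hb₀ hd₀)
  rw [intervalIntegral.integral_add hL1i hL2i] at h1
  linarith

end

/-- K4 with a strictly positive reference -/
theorem K4_ref {n m : Type} [Fintype n] [DecidableEq n] [Fintype m] [DecidableEq m]
    (X Y : Matrix n m ℂ) {b d : Matrix n n ℂ} (hb : b.PosSemidef) (hd : d.PosSemidef)
    {p₀ q₀ b₀ d₀ : ℝ} (hp₀ : 0 < p₀) (hq₀ : 0 < q₀) (hb₀ : 0 < b₀) (hd₀ : 0 < d₀)
    (hp : (X * Xᴴ).trace.re ≤ p₀) (hq : (Y * Yᴴ).trace.re ≤ q₀) (hb' : b.trace.re ≤ b₀)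
    (hd' : d.trace.re ≤ d₀) :
    trPhi (X * Xᴴ) + trPhi (Y * Yᴴ) + trPhi b + trPhi d + J4 p₀ q₀ b₀ d₀ ≤
      trPhi (fromBlocks (X * Xᴴ + b) (X * Yᴴ) (Y * Xᴴ) (Y * Yᴴ + d)) := by
  have hPp : (X * Xᴴ).PosSemidef := posSemidef_self_mul_conjTranspose X
  have hQp : (Y * Yᴴ).PosSemidef := posSemidef_self_mul_conjTranspose Y
  set hP := hPp.isHermitian with hPdef
  set hQ := hQp.isHermitian with hQdef
  have hg := logRep_gK X Y hb hd
  have h1 : LogRep (fun s => ∑ k, Ph p₀ q₀ b₀ d₀ (hQ.eigenvalues k / s)) (∑ _k : n, 0)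
      (∑ k, hQ.eigenvalues k)
      (∑ k, (Real.negMulLog (hQ.eigenvalues k) + CC p₀ q₀ b₀ d₀ * hQ.eigenvalues k)) :=
    LogRep.sum Finset.univ fun k _ => logRep_Ph hp₀ hq₀ hb₀ hd₀ (hQp.eigenvalues_nonneg k)
  have h2 : LogRep (fun s => ∑ k, Ph q₀ p₀ d₀ b₀ (hP.eigenvalues k / s)) (∑ _k : n, 0)
      (∑ k, hP.eigenvalues k)
      (∑ k, (Real.negMulLog (hP.eigenvalues k) + CC q₀ p₀ d₀ b₀ * hP.eigenvalues k)) :=
    LogRep.sum Finset.univ fun k _ => logRep_Ph hq₀ hp₀ hd₀ hb₀ (hPp.eigenvalues_nonneg k)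
  have hQtr : (Y * Yᴴ).trace.re = ∑ k, hQ.eigenvalues k := by
    rw [hQ.trace_eq_sum_eigenvalues]; simp
  have hPtr : (X * Xᴴ).trace.re = ∑ k, hP.eigenvalues k := by
    rw [hP.trace_eq_sum_eigenvalues]; simp
  have hQphi : trPhi (Y * Yᴴ) = ∑ k, Real.negMulLog (hQ.eigenvalues k) := by
    rw [trPhi, dif_pos hQ]
  have hPphi : trPhi (X * Xᴴ) = ∑ k, Real.negMulLog (hP.eigenvalues k) := by
    rw [trPhi, dif_pos hP]
  rw [Finset.sum_add_distrib, ← Finset.mul_sum, ← hQtr, ← hQphi] at h1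
  rw [Finset.sum_add_distrib, ← Finset.mul_sum, ← hPtr, ← hPphi] at h2
  have h12 := h1.add h2
  simp only [Finset.sum_const_zero, add_zero] at h12
  -- limit comparison
  have hcmp : ∀ S > 0, (∫ s in (0 : ℝ)..S, ((∑ k, Ph p₀ q₀ b₀ d₀ (hQ.eigenvalues k / s)) +
      ∑ k, Ph q₀ p₀ d₀ b₀ (hP.eigenvalues k / s)))
      - (G1 p₀ q₀ b₀ d₀ 0 * d.trace.re + G1 q₀ p₀ d₀ b₀ 0 * b.trace.re)
      ≤ ∫ s in (0 : ℝ)..S, gK X Y b d s := by
    intro S hS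
    rw [intervalIntegral.integral_add (h1.1 S hS) (h2.1 S hS),
      intervalIntegral.integral_finsetSum fun k _ =>
        (logRep_Ph hp₀ hq₀ hb₀ hd₀ (hQp.eigenvalues_nonneg k)).1 S hS,
      intervalIntegral.integral_finsetSum fun k _ =>
        (logRep_Ph hq₀ hp₀ hd₀ hb₀ (hPp.eigenvalues_nonneg k)).1 S hS]
    have := gK_int X Y hb hd hP hQ hp₀ hq₀ hb₀ hd₀ hS
    linarith
  have hlim := le_of_tendsto_of_tendsto (h12.2.sub_const
    (G1 p₀ q₀ b₀ d₀ 0 * d.trace.re + G1 q₀ p₀ d₀ b₀ 0 * b.trace.re)) hg.2 (by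
      filter_upwards [eventually_gt_atTop (0 : ℝ)] with S hS
      have := hcmp S hS
      have e : (Y * Yᴴ).trace.re + (X * Xᴴ).trace.re = (X * Xᴴ).trace.re + (Y * Yᴴ).trace.re :=
        add_comm _ _
      rw [e]
      linarith)
  have hc1 := CC_nonpos hp₀ hq₀ hb₀ hd₀
  have hc2 := CC_nonpos hq₀ hp₀ hd₀ hb₀
  have hG1 : 0 ≤ G1 p₀ q₀ b₀ d₀ 0 := by
    have := Ph_le_const hp₀ hq₀ hb₀ hd₀ 0
    rwa [Ph_zero] at this
  have hG2 : 0 ≤ G1 q₀ p₀ d₀ b₀ 0 := by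
    have := Ph_le_const hq₀ hp₀ hd₀ hb₀ 0
    rwa [Ph_zero] at this
  have hcc := CC_add hp₀ hq₀ hb₀ hd₀
  have e1 := mul_le_mul_of_nonpos_left hq hc1
  have e2 := mul_le_mul_of_nonpos_left hp hc2
  have e3 := mul_le_mul_of_nonneg_left hd' hG1
  have e4 := mul_le_mul_of_nonneg_left hb' hG2
  unfold J4
  linarith

theorem K4 {n m : Type} [Fintype n] [DecidableEq n] [Fintype m] [DecidableEq m]
    (X Y : Matrix n m ℂ) {b d : Matrix n n ℂ} (hb : b.PosSemidef) (hd : d.PosSemidef) :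
    trPhi (X * Xᴴ) + trPhi (Y * Yᴴ) + trPhi b + trPhi d +
      J4 (X * Xᴴ).trace.re (Y * Yᴴ).trace.re b.trace.re d.trace.re ≤
      trPhi (fromBlocks (X * Xᴴ + b) (X * Yᴴ) (Y * Xᴴ) (Y * Yᴴ + d)) := by
  have hPp : (X * Xᴴ).PosSemidef := posSemidef_self_mul_conjTranspose X
  have hQp : (Y * Yᴴ).PosSemidef := posSemidef_self_mul_conjTranspose Y
  have hp0 : 0 ≤ (X * Xᴴ).trace.re := (Complex.nonneg_iff.1 hPp.trace_nonneg).1
  have hq0 : 0 ≤ (Y * Yᴴ).trace.re := (Complex.nonneg_iff.1 hQp.trace_nonneg).1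
  have hb0 : 0 ≤ b.trace.re := (Complex.nonneg_iff.1 hb.trace_nonneg).1
  have hd0 : 0 ≤ d.trace.re := (Complex.nonneg_iff.1 hd.trace_nonneg).1
  have hcont : Continuous fun ε : ℝ => trPhi (X * Xᴴ) + trPhi (Y * Yᴴ) + trPhi b + trPhi d +
      J4 ((X * Xᴴ).trace.re + ε) ((Y * Yᴴ).trace.re + ε) (b.trace.re + ε) (d.trace.re + ε) := by
    have := Real.continuous_negMulLog
    unfold J4 rt1 rt2
    fun_prop
  have hlim := hcont.tendsto 0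
  simp only [add_zero] at hlim
  have hlim' := hlim.mono_left (nhdsWithin_le_nhds (s := Set.Ioi (0 : ℝ)))
  refine le_of_tendsto hlim' ?_
  filter_upwards [self_mem_nhdsWithin] with ε hε
  have hε' : 0 < ε := hε
  exact K4_ref X Y hb hd (by linarith) (by linarith) (by linarith) (by linarith) (by linarith)
    (by linarith) (by linarith) (by linarith)

end Vale.Agent.P358
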