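import Vale.Agent.P358.K.K4

namespace Vale.Agent.P358

open Matrix MeasureTheory Filter Topology
open scoped ComplexOrder

theorem trPhi_zero {n : Type} [Fintype n] [DecidableEq n] : trPhi (0 : Matrix n n ℂ) = 0 := by
  have h0 : (0 : Matrix n n ℂ).IsHermitian := Matrix.isHermitian_zero
  have hp : (0 : Matrix n n ℂ).PosSemidef := PosSemidef.zero
  rw [trPhi, dif_pos h0]
  have htr : ∑ k, h0.eigenvalues k = 0 := by
    have := h0.trace_eq_sum_eigenvalues
    rw [Matrix.trace_zero] at this
    have h2 := congrArg Complex.re this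
    simpa using h2.symm
  have hz := (Finset.sum_eq_zero_iff_of_nonneg fun k _ => hp.eigenvalues_nonneg k).1 htr
  refine Finset.sum_eq_zero fun k hk => ?_
  rw [hz k hk, Real.negMulLog_zero]

/-- factorization of a positive semidefinite matrix -/
theorem psd_factor {n : Type} [Fintype n] [DecidableEq n] {A : Matrix n n ℂ}
    (hA : A.PosSemidef) : ∃ R : Matrix n n ℂ, R * Rᴴ = A := by
  have hH := hA.isHermitian
  refine ⟨(hH.eigenvectorUnitary : Matrix n n ℂ) *
    diagonal (fun k => ((Real.sqrt (hH.eigenvalues k) : ℝ) : ℂ)), ?_⟩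
  rw [Matrix.conjTranspose_mul, Matrix.diagonal_conjTranspose]
  have h1 : diagonal (fun k => ((Real.sqrt (hH.eigenvalues k) : ℝ) : ℂ)) *
      diagonal (star fun k => ((Real.sqrt (hH.eigenvalues k) : ℝ) : ℂ)) =
      diagonal (fun k => ((hH.eigenvalues k : ℝ) : ℂ)) := by
    rw [Matrix.diagonal_mul_diagonal]
    congr 1
    ext k
    simp only [Pi.star_apply, RCLike.star_def, Complex.conj_ofReal]
    rw [← Complex.ofReal_mul, Real.mul_self_sqrt (hA.eigenvalues_nonneg k)]
  have h2 := fcal_id hH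
  unfold fcal at h2
  rw [← h1] at h2
  simpa only [Matrix.mul_assoc] using h2

theorem J4_zero (p b : ℝ) (hp : 0 ≤ p) (hb : 0 ≤ b) :
    J4 p 0 b 0 = Real.negMulLog (p + b) - Real.negMulLog p - Real.negMulLog b := by
  have h1 : √((p + 0 + b + 0) ^ 2 - 4 * (p * 0 + b * 0 + b * 0)) = p + b := by
    have : (p + 0 + b + 0) ^ 2 - 4 * (p * 0 + b * 0 + b * 0) = (p + b) ^ 2 := by ring
    rw [this, Real.sqrt_sq (by linarith)]
  unfold J4 rt1 rt2
  rw [h1]
  have h2 : (p + 0 + b + 0 + (p + b)) / 2 = p + b := by ring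
  have h3 : (p + 0 + b + 0 - (p + b)) / 2 = 0 := by ring
  rw [h2, h3, Real.negMulLog_zero]
  ring

/-- superadditivity of entropy for unnormalised matrices -/
theorem trPhi_add {n : Type} [Fintype n] [DecidableEq n] {A B : Matrix n n ℂ}
    (hA : A.PosSemidef) (hB : B.PosSemidef) :
    trPhi A + trPhi B + (Real.negMulLog (A.trace.re + B.trace.re) - Real.negMulLog A.trace.re
      - Real.negMulLog B.trace.re) ≤ trPhi (A + B) := by
  obtain ⟨R, hR⟩ := psd_factor hA
  have h := K4 R (0 : Matrix n n ℂ) hB (PosSemidef.zero : (0 : Matrix n n ℂ).PosSemidef)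
  rw [hR, Matrix.conjTranspose_zero, Matrix.mul_zero,
    Matrix.mul_zero, Matrix.zero_mul, add_zero, Matrix.trace_zero, Complex.zero_re,
    trPhi_fromBlocks_zero (hA.add hB), trPhi_zero, J4_zero] at h
  · linarith
  · exact (Complex.nonneg_iff.1 hA.trace_nonneg).1
  · exact (Complex.nonneg_iff.1 hB.trace_nonneg).1

theorem trPhi_smul {n : Type} [Fintype n] [DecidableEq n] {A : Matrix n n ℂ}
    (hA : A.PosSemidef) {c : ℝ} (hc : 0 ≤ c) :
    trPhi (((c : ℝ) : ℂ) • A) = c * trPhi A + Real.negMulLog c * A.trace.re := by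
  rcases hc.eq_or_lt with h | h
  · rw [← h]
    simp [trPhi_zero]
  · have hcA : ((c : ℂ) • A).PosSemidef := hA.smul (by exact_mod_cast hc)
    have hH := hA.isHermitian
    have htr : A.trace.re = ∑ k, hH.eigenvalues k := by
      rw [hH.trace_eq_sum_eigenvalues]; simp
    rw [trPhi, dif_pos hcA.isHermitian, sum_eig_smul hH c h hcA.isHermitian Real.negMulLog,
      trPhi, dif_pos hH, htr, Finset.mul_sum, Finset.mul_sum, ← Finset.sum_add_distrib]
    refine Finset.sum_congr rfl fun k _ => ?_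
    rw [Real.negMulLog_mul]
    ring

end Vale.Agent.P358
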