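import Vale.Agent.P358.K.K4
import Vale.Agent.P358.K.TrAdd

namespace Vale.Agent.P358

open Matrix MeasureTheory Filter Topology
open scoped ComplexOrder

/-- scalar identity: output entropy of a pure input -/
theorem EE_eq {γ ν : ℝ} {a c : ℝ}
    (ha : 0 ≤ a) (hc : 0 ≤ c) (hε : 0 < 1 - γ + γ * ν) :
    EE γ ν (a + c) c + Real.negMulLog (a + c) =
      Real.negMulLog (rt1 ((1 - γ) / (1 - γ + γ * ν) * a) ((1 - γ + γ * ν) * c)
        ((γ * (1 - ν)) * (γ * ν) / (1 - γ + γ * ν) * a + γ * (1 - ν) * c) (γ * ν * a)) +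
      Real.negMulLog (rt2 ((1 - γ) / (1 - γ + γ * ν) * a) ((1 - γ + γ * ν) * c)
        ((γ * (1 - ν)) * (γ * ν) / (1 - γ + γ * ν) * a + γ * (1 - ν) * c) (γ * ν * a)) := by
  have hne : 1 - γ + γ * ν ≠ 0 := hε.ne'
  have hsum : (1 - γ) / (1 - γ + γ * ν) * a + (1 - γ + γ * ν) * c +
      ((γ * (1 - ν)) * (γ * ν) / (1 - γ + γ * ν) * a + γ * (1 - ν) * c) + γ * ν * a = a + c := by
    field_simp
    ring
  have hprod : (1 - γ) / (1 - γ + γ * ν) * a * (γ * ν * a) +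
      ((γ * (1 - ν)) * (γ * ν) / (1 - γ + γ * ν) * a + γ * (1 - ν) * c) * ((1 - γ + γ * ν) * c) +
      ((γ * (1 - ν)) * (γ * ν) / (1 - γ + γ * ν) * a + γ * (1 - ν) * c) * (γ * ν * a) =
      γ * (ν * (1 - ν) * (a + c) ^ 2 + (1 - γ) * (c - ν * (a + c)) ^ 2) := by
    field_simp
    ring
  unfold rt1 rt2
  rw [hsum, hprod]
  rcases (add_nonneg ha hc).eq_or_lt with h0 | h0
  · have ha0 : a = 0 := by linarith
    have hc0 : c = 0 := by linarith
    subst ha0 hc0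
    simp [EE]
  · set m := a + c with hm
    have hD : m ^ 2 - 4 * (γ * (ν * (1 - ν) * m ^ 2 + (1 - γ) * (c - ν * m) ^ 2)) =
        m ^ 2 * (1 - 4 * γ * (ν * (1 - ν) + (1 - γ) * (c / m - ν) ^ 2)) := by
      field_simp
    rw [hD, Real.sqrt_mul (sq_nonneg m), Real.sqrt_sq h0.le]
    have e1 : (m + m * √(1 - 4 * γ * (ν * (1 - ν) + (1 - γ) * (c / m - ν) ^ 2))) / 2 =
        m * outEig γ ν (c / m) := by
      unfold outEig; ring
    have e2 : (m - m * √(1 - 4 * γ * (ν * (1 - ν) + (1 - γ) * (c / m - ν) ^ 2))) / 2 =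
        m * (1 - outEig γ ν (c / m)) := by
      unfold outEig; ring
    rw [e1, e2, Real.negMulLog_mul, Real.negMulLog_mul]
    unfold EE eN
    rw [Real.binEntropy_eq_negMulLog_add_negMulLog_one_sub]
    ring

theorem key_deg {ν : ℝ} (hν : ν = 0) : Key 1 ν := by
  subst hν
  intro R _ _ A B C hσ
  have hA : A.PosSemidef := hσ.submatrix (Sum.inl : R → R ⊕ R)
  have hC : C.PosSemidef := hσ.submatrix (Sum.inr : R → R ⊕ R)
  have h1 : gadBlocks 1 0 A B C = fromBlocks (A + C) 0 0 0 := by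
    unfold gadBlocks
    simp
  rw [h1, trPhi_fromBlocks_zero (hA.add hC)]
  have h2 : EE 1 0 (A.trace.re + C.trace.re) C.trace.re = 0 := by
    unfold EE eN outEig
    simp
  rw [h2]
  have := trPhi_add hA hC
  linarith

theorem key_all {γ ν : ℝ} (hγ : γ ∈ Set.Icc (0 : ℝ) 1) (hν : ν ∈ Set.Icc (0 : ℝ) 1) :
    Key γ ν := by
  have hγν : 0 ≤ γ * ν := mul_nonneg hγ.1 hν.1
  rcases (show 0 ≤ 1 - γ + γ * ν by linarith [hγ.2]).eq_or_lt with h0 | hε
  · have h1 : γ = 1 := by linarith [hγ.2]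
    subst h1
    exact key_deg (by linarith)
  intro R _ _ A B C hσ
  obtain ⟨Z, hZ⟩ := psd_factor hσ
  set X : Matrix R (R ⊕ R) ℂ := Z.toRows₁ with hX
  set Y : Matrix R (R ⊕ R) ℂ := Z.toRows₂ with hY
  have hZ2 : fromRows X Y * (fromRows X Y)ᴴ = fromBlocks A B Bᴴ C := by
    rw [← hZ, hX, hY, fromRows_toRows]
  rw [conjTranspose_fromRows_eq_fromCols_conjTranspose, fromRows_mul_fromCols,
    fromBlocks_inj] at hZ2
  obtain ⟨hXX, hXY, hYX, hYY⟩ := hZ2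
  have hA : A.PosSemidef := hXX ▸ posSemidef_self_mul_conjTranspose X
  have hC : C.PosSemidef := hYY ▸ posSemidef_self_mul_conjTranspose Y
  have hEE := EE_eq (a := A.trace.re) (c := C.trace.re)
    (Complex.nonneg_iff.1 hA.trace_nonneg).1 (Complex.nonneg_iff.1 hC.trace_nonneg).1 hε
  obtain ⟨ε, hεd⟩ : ∃ ε, ε = 1 - γ + γ * ν := ⟨_, rfl⟩
  obtain ⟨β, hβ⟩ : ∃ β, β = γ * (1 - ν) := ⟨_, rfl⟩
  obtain ⟨δ, hδ⟩ : ∃ δ, δ = γ * ν := ⟨_, rfl⟩
  rw [← hεd] at hε hEE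
  rw [← hδ] at hγν
  rw [← hβ, ← hδ] at hEE
  have hβ0 : 0 ≤ β := hβ ▸ mul_nonneg hγ.1 (by linarith [hν.2])
  have hη : 0 ≤ 1 - γ := by linarith [hγ.2]
  have hηε : 0 ≤ (1 - γ) / ε := div_nonneg hη hε.le
  have hβδ : 0 ≤ β * δ / ε := div_nonneg (mul_nonneg hβ0 hγν) hε.le
  set X' : Matrix R (R ⊕ R) ℂ := ((√((1 - γ) / ε) : ℝ) : ℂ) • X with hX'
  set Y' : Matrix R (R ⊕ R) ℂ := ((√ε : ℝ) : ℂ) • Y with hY'
  have hXX' : X' * X'ᴴ = (((1 - γ) / ε : ℝ) : ℂ) • A := by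
    rw [hX', Matrix.conjTranspose_smul, Matrix.smul_mul, Matrix.mul_smul, smul_smul, hXX]
    congr 1
    rw [RCLike.star_def, Complex.conj_ofReal, ← Complex.ofReal_mul, Real.mul_self_sqrt hηε]
  have hYY' : Y' * Y'ᴴ = ((ε : ℝ) : ℂ) • C := by
    rw [hY', Matrix.conjTranspose_smul, Matrix.smul_mul, Matrix.mul_smul, smul_smul, hYY]
    congr 1
    rw [RCLike.star_def, Complex.conj_ofReal, ← Complex.ofReal_mul, Real.mul_self_sqrt hε.le]
  have hsq : √((1 - γ) / ε) * √ε = √(1 - γ) := by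
    rw [← Real.sqrt_mul hηε, div_mul_cancel₀ _ hε.ne']
  have hXY' : X' * Y'ᴴ = ((√(1 - γ) : ℝ) : ℂ) • B := by
    rw [hX', hY', Matrix.conjTranspose_smul, Matrix.smul_mul, Matrix.mul_smul, smul_smul, hXY]
    congr 1
    rw [RCLike.star_def, Complex.conj_ofReal, ← Complex.ofReal_mul, hsq]
  have hYX' : Y' * X'ᴴ = ((√(1 - γ) : ℝ) : ℂ) • Bᴴ := by
    rw [hX', hY', Matrix.conjTranspose_smul, Matrix.smul_mul, Matrix.mul_smul, smul_smul, hYX]
    congr 1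
    rw [RCLike.star_def, Complex.conj_ofReal, ← Complex.ofReal_mul, mul_comm, hsq]
  have hb1 : (((β * δ / ε : ℝ) : ℂ) • A).PosSemidef := hA.smul (by exact_mod_cast hβδ)
  have hb2 : (((β : ℝ) : ℂ) • C).PosSemidef := hC.smul (by exact_mod_cast hβ0)
  have hd : (((δ : ℝ) : ℂ) • A).PosSemidef := hA.smul (by exact_mod_cast hγν)
  have hmain := K4 X' Y' (hb1.add hb2) hd
  have hblock : fromBlocks (X' * X'ᴴ + (((β * δ / ε : ℝ) : ℂ) • A + ((β : ℝ) : ℂ) • C)) (X' * Y'ᴴ)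
      (Y' * X'ᴴ) (Y' * Y'ᴴ + ((δ : ℝ) : ℂ) • A) = gadBlocks γ ν A B C := by
    unfold gadBlocks
    have hεd' : 1 - γ + δ = ε := by rw [hδ, hεd]
    rw [hXX', hYY', hXY', hYX', ← hβ, ← hδ, hεd', ← add_assoc, ← add_smul]
    have e1 : (((1 - γ) / ε : ℝ) : ℂ) + ((β * δ / ε : ℝ) : ℂ) = ((1 - δ : ℝ) : ℂ) := by
      rw [← Complex.ofReal_add]
      congr 1
      rw [← add_div, div_eq_iff hε.ne', hεd, hβ, hδ]
      ring
    rw [e1, add_comm (((ε : ℝ) : ℂ) • C)]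
  rw [hblock, hXX', hYY'] at hmain
  have hadd := trPhi_add hb1 hb2
  rw [trPhi_smul hA hηε, trPhi_smul hC hε.le, trPhi_smul hA hγν] at hmain
  rw [trPhi_smul hA hβδ, trPhi_smul hC hβ0] at hadd
  have hrs : ∀ (x : ℝ) (M : Matrix R R ℂ), (((x : ℝ) : ℂ) • M).trace.re = x * M.trace.re := by
    intro x M
    rw [Matrix.trace_smul, smul_eq_mul, Complex.re_ofReal_mul]
  rw [Matrix.trace_add, Complex.add_re] at hmain
  simp only [hrs] at hmain hadd
  unfold J4 at hmain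
  have hs1 : (1 - γ) / ε + δ + β * δ / ε = 1 := by
    have h1 : (1 - γ) / ε + δ + β * δ / ε = (1 - γ + δ * ε + β * δ) / ε := by
      have := hε.ne'
      field_simp
    rw [h1, div_eq_iff hε.ne', hεd, hβ, hδ]
    ring
  have hs2 : ε + β = 1 := by rw [hεd, hβ]; ring
  generalize A.trace.re = a at *
  generalize C.trace.re = c at *
  generalize (1 - γ) / ε = κ at *
  generalize β * δ / ε = l at *
  rw [Real.negMulLog_mul κ a, Real.negMulLog_mul ε c, Real.negMulLog_mul δ a] at hmain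
  rw [Real.negMulLog_mul l a, Real.negMulLog_mul β c] at hadd
  have e1 : trPhi A = κ * trPhi A + δ * trPhi A + l * trPhi A := by
    rw [← add_mul, ← add_mul, hs1, one_mul]
  have e2 : trPhi C = ε * trPhi C + β * trPhi C := by
    rw [← add_mul, hs2, one_mul]
  have e3 : Real.negMulLog a = κ * Real.negMulLog a + δ * Real.negMulLog a
      + l * Real.negMulLog a := by
    rw [← add_mul, ← add_mul, hs1, one_mul]
  have e4 : Real.negMulLog c = ε * Real.negMulLog c + β * Real.negMulLog c := by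
    rw [← add_mul, hs2, one_mul]
  linarith

end Vale.Agent.P358
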