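import Vale.Agent.P358.LogRep

/-!
Functional calculus of a Hermitian matrix and first order bounds for `log det`.
-/

namespace Vale.Agent.P358

open Matrix
open scoped ComplexOrder

variable {m : Type} [Fintype m] [DecidableEq m]

/-- function of a Hermitian matrix -/
noncomputable def fcal {A : Matrix m m ℂ} (hA : A.IsHermitian) (f : ℝ → ℝ) : Matrix m m ℂ :=
  (hA.eigenvectorUnitary : Matrix m m ℂ) * diagonal (fun k => ((f (hA.eigenvalues k) : ℝ) : ℂ)) *
    (hA.eigenvectorUnitary : Matrix m m ℂ)ᴴ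

theorem U_mul_UH {A : Matrix m m ℂ} (hA : A.IsHermitian) :
    (hA.eigenvectorUnitary : Matrix m m ℂ) * (hA.eigenvectorUnitary : Matrix m m ℂ)ᴴ = 1 := by
  have := Unitary.coe_mul_star_self hA.eigenvectorUnitary
  simpa [Matrix.star_eq_conjTranspose] using this

theorem UH_mul_U {A : Matrix m m ℂ} (hA : A.IsHermitian) :
    (hA.eigenvectorUnitary : Matrix m m ℂ)ᴴ * (hA.eigenvectorUnitary : Matrix m m ℂ) = 1 := by
  have := Unitary.coe_star_mul_self hA.eigenvectorUnitary
  simpa [Matrix.star_eq_conjTranspose] using this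

theorem fcal_id {A : Matrix m m ℂ} (hA : A.IsHermitian) : fcal hA (fun x => x) = A := by
  have h := hA.spectral_theorem
  rw [Unitary.conjStarAlgAut_apply] at h
  conv_rhs => rw [h]
  rfl

theorem fcal_sub {A : Matrix m m ℂ} (hA : A.IsHermitian) (f g : ℝ → ℝ) :
    fcal hA f - fcal hA g = fcal hA (fun x => f x - g x) := by
  unfold fcal
  rw [← Matrix.sub_mul, ← Matrix.mul_sub, Matrix.diagonal_sub]
  simp

theorem fcal_const {A : Matrix m m ℂ} (hA : A.IsHermitian) (c : ℝ) :
    fcal hA (fun _ => c) = (c : ℂ) • (1 : Matrix m m ℂ) := by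
  unfold fcal
  rw [← Matrix.smul_one_eq_diagonal, Matrix.mul_smul, Matrix.smul_mul, Matrix.mul_one, U_mul_UH]

theorem fcal_psd {A : Matrix m m ℂ} (hA : A.IsHermitian) {f : ℝ → ℝ}
    (h : ∀ k, 0 ≤ f (hA.eigenvalues k)) : (fcal hA f).PosSemidef := by
  unfold fcal
  refine PosSemidef.mul_mul_conjTranspose_same ?_ _
  rw [Matrix.posSemidef_diagonal_iff]
  intro k
  exact_mod_cast h k

theorem fcal_trace {A : Matrix m m ℂ} (hA : A.IsHermitian) (f : ℝ → ℝ) :
    (fcal hA f).trace.re = ∑ k, f (hA.eigenvalues k) := by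
  unfold fcal
  rw [Matrix.trace_mul_comm, ← Matrix.mul_assoc, UH_mul_U, Matrix.one_mul, Matrix.trace_diagonal]
  simp

theorem logdet_le_trace {N : Matrix m m ℂ} (hN : N.PosDef) :
    Real.log N.det.re ≤ N.trace.re - Fintype.card m := by
  have hH := hN.isHermitian
  rw [hH.det_eq_prod_eigenvalues, hH.trace_eq_sum_eigenvalues]
  have h1 : (∏ i, ((hH.eigenvalues i : ℝ) : ℂ)) = ((∏ i, hH.eigenvalues i : ℝ) : ℂ) := by
    push_cast; rfl
  have h2 : (∑ i, ((hH.eigenvalues i : ℝ) : ℂ)) = ((∑ i, hH.eigenvalues i : ℝ) : ℂ) := by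
    push_cast; rfl
  have hpos : ∀ i, 0 < hH.eigenvalues i := fun i => hN.eigenvalues_pos i
  calc Real.log ((∏ i, ((hH.eigenvalues i : ℝ) : ℂ))).re
      = ∑ i, Real.log (hH.eigenvalues i) := by
        rw [h1, Complex.ofReal_re, Real.log_prod]
        exact fun i _ => (hpos i).ne'
    _ ≤ ∑ i, (hH.eigenvalues i - 1) :=
        Finset.sum_le_sum fun i _ => Real.log_le_sub_one_of_pos (hpos i)
    _ = (∑ i, ((hH.eigenvalues i : ℝ) : ℂ)).re - Fintype.card m := by
        rw [h2, Complex.ofReal_re, Finset.sum_sub_distrib]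
        simp

theorem posDef_det_re_pos {N : Matrix m m ℂ} (hN : N.PosDef) : 0 < N.det.re :=
  (Complex.pos_iff.1 hN.det_pos).1

/-- first order bound, with the congruence made explicit -/
theorem logdet_sub_aux {W E : Matrix m m ℂ} (hW : W.PosDef) (hC : (W - E).PosDef) :
    ∑ k, (((hW.isHermitian.eigenvectorUnitary : Matrix m m ℂ)ᴴ * E *
      (hW.isHermitian.eigenvectorUnitary : Matrix m m ℂ)) k k).re / hW.isHermitian.eigenvalues k
      ≤ Real.log W.det.re - Real.log (W - E).det.re := by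
  set hH := hW.isHermitian with hHdef
  set U : Matrix m m ℂ := (hH.eigenvectorUnitary : Matrix m m ℂ) with hU
  have hpos : ∀ i, 0 < hH.eigenvalues i := fun i => hW.eigenvalues_pos i
  set D : Matrix m m ℂ := diagonal (fun k => (((Real.sqrt (hH.eigenvalues k))⁻¹ : ℝ) : ℂ)) with hD
  set V : Matrix m m ℂ := U * D with hV
  have hDH : Dᴴ = D := by
    rw [hD, Matrix.diagonal_conjTranspose]
    congr 1
    ext k
    simp
  have hsq : ∀ k, (Real.sqrt (hH.eigenvalues k)) * Real.sqrt (hH.eigenvalues k)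
      = hH.eigenvalues k := fun k => Real.mul_self_sqrt (hpos k).le
  have hsp : ∀ k, 0 < Real.sqrt (hH.eigenvalues k) := fun k => Real.sqrt_pos.2 (hpos k)
  -- diagonalisation
  have hWd : Uᴴ * W * U = diagonal (fun k => ((hH.eigenvalues k : ℝ) : ℂ)) := by
    have h := fcal_id hH
    unfold fcal at h
    rw [← hU] at h
    conv_lhs => rw [← h]
    have h1 : Uᴴ * (U * diagonal (fun k => ((hH.eigenvalues k : ℝ) : ℂ)) * Uᴴ) * U
        = (Uᴴ * U) * diagonal (fun k => ((hH.eigenvalues k : ℝ) : ℂ)) * (Uᴴ * U) := by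
      simp only [Matrix.mul_assoc]
    rw [h1, UH_mul_U hH, Matrix.one_mul, Matrix.mul_one]
  have hVW : Vᴴ * W * V = 1 := by
    have h1 : Vᴴ * W * V = D * (Uᴴ * W * U) * D := by
      rw [hV, Matrix.conjTranspose_mul, hDH]
      simp only [Matrix.mul_assoc]
    rw [h1, hWd, hD, Matrix.diagonal_mul_diagonal, Matrix.diagonal_mul_diagonal, ← diagonal_one]
    congr 1
    ext k
    rw [← Complex.ofReal_mul, ← Complex.ofReal_mul, ← Complex.ofReal_one]
    congr 1
    have h5 := hsp k
    have h6 := hsq k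
    generalize Real.sqrt (hH.eigenvalues k) = w at h5 h6 ⊢
    rw [← h6]
    field_simp
  have hdetV : V.det ≠ 0 := by
    intro h0
    have := congrArg Matrix.det hVW
    rw [Matrix.det_mul, Matrix.det_mul, h0] at this
    simp at this
  have hVunit : IsUnit V := (Matrix.isUnit_iff_isUnit_det _).2 (isUnit_iff_ne_zero.2 hdetV)
  have hN : (Vᴴ * (W - E) * V).PosDef := by
    refine hC.conjTranspose_mul_mul_same ?_
    exact Matrix.mulVec_injective_of_isUnit hVunit
  have h1 := logdet_le_trace hN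
  -- the determinant
  have hdet1 : (Vᴴ * (W - E) * V).det * W.det = (W - E).det := by
    have h2 := congrArg Matrix.det hVW
    rw [Matrix.det_mul, Matrix.det_mul, Matrix.det_one] at h2
    rw [Matrix.det_mul, Matrix.det_mul]
    calc (Vᴴ).det * (W - E).det * V.det * W.det
        = (W - E).det * ((Vᴴ).det * W.det * V.det) := by ring
      _ = (W - E).det := by rw [h2, mul_one]
  have hdet2 : Real.log (W - E).det.re = Real.log (Vᴴ * (W - E) * V).det.re
      + Real.log W.det.re := by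
    rw [← Real.log_mul (posDef_det_re_pos hN).ne' (posDef_det_re_pos hW).ne', ← hdet1]
    congr 1
    have hz : W.det.im = 0 := (Complex.pos_iff.1 hW.det_pos).2.symm
    rw [Complex.mul_re, hz, mul_zero, sub_zero]
  -- the trace
  have htr : (Vᴴ * (W - E) * V).trace.re = Fintype.card m -
      ∑ k, ((Uᴴ * E * U) k k).re / hH.eigenvalues k := by
    rw [Matrix.mul_sub, Matrix.sub_mul, hVW, Matrix.trace_sub, Matrix.trace_one]
    have h3 : Vᴴ * E * V = D * (Uᴴ * E * U) * D := by
      rw [hV, Matrix.conjTranspose_mul, hDH]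
      simp only [Matrix.mul_assoc]
    rw [h3, Complex.sub_re, Complex.natCast_re]
    congr 1
    rw [Matrix.trace, Complex.re_sum]
    refine Finset.sum_congr rfl fun k _ => ?_
    rw [Matrix.diag_apply, hD, Matrix.mul_diagonal, Matrix.diagonal_mul,
      Complex.re_mul_ofReal, Complex.re_ofReal_mul]
    have h5 := hsp k
    have h6 := hsq k
    generalize Real.sqrt (hH.eigenvalues k) = w at h5 h6 ⊢
    rw [← h6]
    field_simp
  rw [htr] at h1
  linarith

theorem eig_le_of_le {W : Matrix m m ℂ} (hH : W.IsHermitian) {l : ℝ}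
    (hWl : ((l : ℂ) • (1 : Matrix m m ℂ) - W).PosSemidef) (k : m) : hH.eigenvalues k ≤ l := by
  set U : Matrix m m ℂ := (hH.eigenvectorUnitary : Matrix m m ℂ) with hU
  have hWd : Uᴴ * W * U = diagonal (fun k => ((hH.eigenvalues k : ℝ) : ℂ)) := by
    have h := fcal_id hH
    unfold fcal at h
    rw [← hU] at h
    conv_lhs => rw [← h]
    have h1 : Uᴴ * (U * diagonal (fun k => ((hH.eigenvalues k : ℝ) : ℂ)) * Uᴴ) * U
        = (Uᴴ * U) * diagonal (fun k => ((hH.eigenvalues k : ℝ) : ℂ)) * (Uᴴ * U) := by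
      simp only [Matrix.mul_assoc]
    rw [h1, UH_mul_U hH, Matrix.one_mul, Matrix.mul_one]
  have h1 : (Uᴴ * ((l : ℂ) • (1 : Matrix m m ℂ) - W) * U).PosSemidef :=
    hWl.conjTranspose_mul_mul_same _
  rw [Matrix.mul_sub, Matrix.sub_mul, hWd, Matrix.mul_smul, Matrix.mul_one, Matrix.smul_mul,
    UH_mul_U hH] at h1
  have h2 := h1.diag_nonneg (i := k)
  have h3 := (Complex.nonneg_iff.1 h2).1
  simp at h3
  exact h3

theorem logdet_sub {W E : Matrix m m ℂ} (hW : W.PosDef) (hC : (W - E).PosDef)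
    (hE : E.PosSemidef) {l : ℝ}
    (hWl : ((l : ℂ) • (1 : Matrix m m ℂ) - W).PosSemidef) :
    E.trace.re / l ≤ Real.log W.det.re - Real.log (W - E).det.re := by
  refine le_trans ?_ (logdet_sub_aux hW hC)
  set hH := hW.isHermitian with hHdef
  set U : Matrix m m ℂ := (hH.eigenvectorUnitary : Matrix m m ℂ) with hU
  have h0 : (Uᴴ * E * U).PosSemidef := hE.conjTranspose_mul_mul_same _
  have htr : E.trace = (Uᴴ * E * U).trace := by
    rw [Matrix.trace_mul_comm, ← Matrix.mul_assoc, U_mul_UH hH, Matrix.one_mul]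
  rw [htr, Matrix.trace, Complex.re_sum, Finset.sum_div]
  refine Finset.sum_le_sum fun k _ => ?_
  have h2 := (Complex.nonneg_iff.1 (h0.diag_nonneg (i := k))).1
  exact div_le_div_of_nonneg_left h2 (hW.eigenvalues_pos k) (eig_le_of_le hH hWl k)

theorem logdet_mono {W E : Matrix m m ℂ} (hW : W.PosDef) (hC : (W - E).PosDef)
    (hE : E.PosSemidef) : Real.log (W - E).det.re ≤ Real.log W.det.re := by
  have h := logdet_sub_aux hW hC
  set hH := hW.isHermitian with hHdef
  set U : Matrix m m ℂ := (hH.eigenvectorUnitary : Matrix m m ℂ) with hU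
  have h0 : (Uᴴ * E * U).PosSemidef := hE.conjTranspose_mul_mul_same _
  have h1 : 0 ≤ ∑ k, ((Uᴴ * E * U) k k).re / hH.eigenvalues k := by
    refine Finset.sum_nonneg fun k _ => ?_
    have h2 := (Complex.nonneg_iff.1 (h0.diag_nonneg (i := k))).1
    exact div_nonneg h2 (hW.eigenvalues_pos k).le
  linarith

end Vale.Agent.P358
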