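import Vale.Agent.P358.LogRep

/-!
Scalar functions of NOTE K.  All parameters `p q b d` are positive.
`G2 p q b d = G1 q p d b`, `Phi2 = Ph q p d b`.
-/

namespace Vale.Agent.P358

open Filter Topology

noncomputable def rt1 (p q b d : ℝ) : ℝ :=
  ((p + q + b + d) + √((p + q + b + d) ^ 2 - 4 * (p * d + b * q + b * d))) / 2

noncomputable def rt2 (p q b d : ℝ) : ℝ :=
  ((p + q + b + d) - √((p + q + b + d) ^ 2 - 4 * (p * d + b * q + b * d))) / 2

noncomputable def kk (p q b d : ℝ) : ℝ := (rt1 p q b d - p - b) / (rt1 p q b d - rt2 p q b d)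

/-- `G1` -/
noncomputable def G1 (p q b d s : ℝ) : ℝ :=
  kk p q b d * Real.log (s + rt1 p q b d) + (1 - kk p q b d) * Real.log (s + rt2 p q b d)
    - Real.log (s + d)

/-- `Phi1`; `Phi2 = Ph q p d b` -/
noncomputable def Ph (p q b d x : ℝ) : ℝ := if x ≤ 0 then 0 else G1 p q b d (max (q / x - d) 0)

variable {p q b d : ℝ}

lemma disc_eq (p q b d : ℝ) : (p + q + b + d) ^ 2 - 4 * (p * d + b * q + b * d) =
    (p + b - (q + d)) ^ 2 + 4 * (p * q) := by ring

theorem rt_add (p q b d : ℝ) : rt1 p q b d + rt2 p q b d = p + q + b + d := by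
  unfold rt1 rt2
  ring

theorem rt_mul (hp : 0 < p) (hq : 0 < q) (hb : 0 < b) (hd : 0 < d) :
    rt1 p q b d * rt2 p q b d = p * d + b * q + b * d := by
  unfold rt1 rt2
  have h : 0 ≤ (p + q + b + d) ^ 2 - 4 * (p * d + b * q + b * d) := by
    rw [disc_eq]; positivity
  have := Real.mul_self_sqrt h
  nlinarith

theorem rt_lt (hp : 0 < p) (hq : 0 < q) (_hb : 0 < b) (_hd : 0 < d) :
    rt2 p q b d < rt1 p q b d := by
  unfold rt1 rt2
  have h : 0 < (p + q + b + d) ^ 2 - 4 * (p * d + b * q + b * d) := by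
    rw [disc_eq]; positivity
  have := Real.sqrt_pos.2 h
  linarith

theorem rt2_pos (hp : 0 < p) (hq : 0 < q) (hb : 0 < b) (hd : 0 < d) : 0 < rt2 p q b d := by
  have h1 := rt_mul hp hq hb hd
  have h2 := rt_add p q b d
  have h3 := rt_lt hp hq hb hd
  have h4 : 0 < rt1 p q b d := by linarith
  have h5 : 0 < rt1 p q b d * rt2 p q b d := by rw [h1]; positivity
  exact (mul_pos_iff_of_pos_left h4).1 h5

theorem rt1_swap (p q b d : ℝ) : rt1 q p d b = rt1 p q b d := by
  unfold rt1
  have e1 : q + p + d + b = p + q + b + d := by ring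
  have e2 : q * b + d * p + d * b = p * d + b * q + b * d := by ring
  rw [e1, e2]

theorem rt2_swap (p q b d : ℝ) : rt2 q p d b = rt2 p q b d := by
  unfold rt2
  have e1 : q + p + d + b = p + q + b + d := by ring
  have e2 : q * b + d * p + d * b = p * d + b * q + b * d := by ring
  rw [e1, e2]

theorem kk_swap (hp : 0 < p) (hq : 0 < q) (hb : 0 < b) (hd : 0 < d) :
    kk q p d b = 1 - kk p q b d := by
  have h3 := rt_lt hp hq hb hd
  have h2 := rt_add p q b d
  have h4 : rt1 p q b d - rt2 p q b d ≠ 0 := by linarith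
  unfold kk
  rw [rt1_swap, rt2_swap, eq_sub_iff_add_eq, ← add_div, div_eq_one_iff_eq h4]
  linarith

lemma between (hp : 0 < p) (hq : 0 < q) (hb : 0 < b) (hd : 0 < d) :
    rt2 p q b d ≤ p + b ∧ p + b ≤ rt1 p q b d := by
  have h1 := rt_mul hp hq hb hd
  have h2 := rt_add p q b d
  have h3 := rt_lt hp hq hb hd
  have h4 : (p + b - rt1 p q b d) * (p + b - rt2 p q b d) = -(p * q) := by
    have : (p + b - rt1 p q b d) * (p + b - rt2 p q b d) =
        (p + b) ^ 2 - (rt1 p q b d + rt2 p q b d) * (p + b) + rt1 p q b d * rt2 p q b d := by ring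
    rw [this, h1, h2]; ring
  have h5 : 0 < p * q := mul_pos hp hq
  constructor
  · by_contra hc
    push Not at hc
    have := mul_pos_of_neg_of_neg (by linarith : p + b - rt1 p q b d < 0)
      (by linarith : p + b - rt2 p q b d < 0)
    linarith
  · by_contra hc
    push Not at hc
    have := mul_pos (by linarith : 0 < p + b - rt1 p q b d)
      (by linarith : 0 < p + b - rt2 p q b d)
    linarith

theorem kk_mem (hp : 0 < p) (hq : 0 < q) (hb : 0 < b) (hd : 0 < d) :
    kk p q b d ∈ Set.Icc (0 : ℝ) 1 := by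
  have h3 := rt_lt hp hq hb hd
  have h4 := between hp hq hb hd
  unfold kk
  constructor
  · exact div_nonneg (by linarith) (by linarith)
  · rw [div_le_one (by linarith)]
    linarith

/-- `k1 r1 + k2 r2 = q + d` -/
theorem kk_rt (hp : 0 < p) (hq : 0 < q) (hb : 0 < b) (hd : 0 < d) :
    kk p q b d * rt1 p q b d + (1 - kk p q b d) * rt2 p q b d = q + d := by
  have h3 := rt_lt hp hq hb hd
  have h2 := rt_add p q b d
  have h4 : rt1 p q b d - rt2 p q b d ≠ 0 := by linarith
  have h5 : kk p q b d * (rt1 p q b d - rt2 p q b d) = rt1 p q b d - p - b := by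
    unfold kk
    exact div_mul_cancel₀ _ h4
  have : kk p q b d * rt1 p q b d + (1 - kk p q b d) * rt2 p q b d =
      kk p q b d * (rt1 p q b d - rt2 p q b d) + rt2 p q b d := by ring
  rw [this, h5]
  linarith

lemma chi_eq (hp : 0 < p) (hq : 0 < q) (hb : 0 < b) (hd : 0 < d) (s : ℝ) :
    (s + rt1 p q b d) * (s + rt2 p q b d) = (s + b) * (s + d) + q * (s + b) + p * (s + d) := by
  have h1 := rt_mul hp hq hb hd
  have h2 := rt_add p q b d
  have : (s + rt1 p q b d) * (s + rt2 p q b d) =
      s ^ 2 + (rt1 p q b d + rt2 p q b d) * s + rt1 p q b d * rt2 p q b d := by ring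
  rw [this, h1, h2]
  ring

lemma ratio_eq (hp : 0 < p) (hq : 0 < q) (hb : 0 < b) (hd : 0 < d) {s : ℝ} (hs : 0 ≤ s) :
    1 + q / (s + d) + p / (s + b) =
      (s + rt1 p q b d) * (s + rt2 p q b d) / ((s + b) * (s + d)) := by
  rw [chi_eq hp hq hb hd]
  have h1 : s + b ≠ 0 := by linarith
  have h2 : s + d ≠ 0 := by linarith
  field_simp

theorem G1_add (hp : 0 < p) (hq : 0 < q) (hb : 0 < b) (hd : 0 < d) {s : ℝ} (hs : 0 ≤ s) :
    G1 p q b d s + G1 q p d b s = Real.log (1 + q / (s + d) + p / (s + b)) := by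
  have h1 := rt2_pos hp hq hb hd
  have h2 := rt_lt hp hq hb hd
  rw [ratio_eq hp hq hb hd hs, Real.log_div, Real.log_mul, Real.log_mul]
  · unfold G1
    rw [rt1_swap, rt2_swap, kk_swap hp hq hb hd]
    ring
  · linarith
  · linarith
  · linarith
  · linarith
  · have : 0 < (s + rt1 p q b d) * (s + rt2 p q b d) := mul_pos (by linarith) (by linarith)
    exact this.ne'
  · have : 0 < (s + b) * (s + d) := mul_pos (by linarith) (by linarith)
    exact this.ne'

lemma hasDerivAt_G1 (hp : 0 < p) (hq : 0 < q) (hb : 0 < b) (hd : 0 < d) {s : ℝ} (hs : 0 ≤ s) :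
    HasDerivAt (G1 p q b d)
      (-(q / (s + d) ^ 2) / (1 + q / (s + d) + p / (s + b))) s := by
  have h1 := rt2_pos hp hq hb hd
  have h2 := rt_lt hp hq hb hd
  have a1 : s + rt1 p q b d ≠ 0 := by linarith
  have a2 : s + rt2 p q b d ≠ 0 := by linarith
  have a3 : s + d ≠ 0 := by linarith
  have a4 : s + b ≠ 0 := by linarith
  have d1 : HasDerivAt (fun s => Real.log (s + rt1 p q b d)) (1 / (s + rt1 p q b d)) s :=
    ((hasDerivAt_id s).add_const _).log a1
  have d2 : HasDerivAt (fun s => Real.log (s + rt2 p q b d)) (1 / (s + rt2 p q b d)) s :=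
    ((hasDerivAt_id s).add_const _).log a2
  have d3 : HasDerivAt (fun s => Real.log (s + d)) (1 / (s + d)) s :=
    ((hasDerivAt_id s).add_const _).log a3
  have h := ((d1.const_mul (kk p q b d)).add (d2.const_mul (1 - kk p q b d))).sub d3
  refine h.congr_deriv ?_
  rw [ratio_eq hp hq hb hd hs]
  have e1 : kk p q b d * (1 / (s + rt1 p q b d)) + (1 - kk p q b d) * (1 / (s + rt2 p q b d)) =
      (s + p + b) / ((s + rt1 p q b d) * (s + rt2 p q b d)) := by
    have h3 := kk_rt hp hq hb hd
    have h4 := rt_add p q b d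
    have : kk p q b d * (1 / (s + rt1 p q b d)) + (1 - kk p q b d) * (1 / (s + rt2 p q b d)) =
        (s + (rt1 p q b d + rt2 p q b d) -
          (kk p q b d * rt1 p q b d + (1 - kk p q b d) * rt2 p q b d)) /
          ((s + rt1 p q b d) * (s + rt2 p q b d)) := by
      field_simp
      ring
    rw [this, h3, h4]
    congr 1
    ring
  rw [e1]
  have h5 := chi_eq hp hq hb hd s
  have a5 : (s + rt1 p q b d) * (s + rt2 p q b d) ≠ 0 := mul_ne_zero a1 a2
  generalize (s + rt1 p q b d) * (s + rt2 p q b d) = X at h5 a5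
  have e2 : (s + p + b) * (s + d) - X = -(q * (s + b)) := by rw [h5]; ring
  have e3 : (s + p + b) / X - 1 / (s + d) = ((s + p + b) * (s + d) - X) / (X * (s + d)) := by
    field_simp
  rw [e3, e2]
  field_simp

lemma aux_anti {s t d : ℝ} (q : ℝ) (hq : 0 < q) (hd : 0 < d) (hs : 0 ≤ s) (hst : s ≤ t) :
    q / (t + d) ≤ q / (s + d) :=
  div_le_div_of_nonneg_left hq.le (by linarith) (by linarith)

/-- slope bound -/
theorem G1_sub_le (hp : 0 < p) (hq : 0 < q) (hb : 0 < b) (hd : 0 < d) {s t : ℝ} (hs : 0 ≤ s)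
    (hst : s ≤ t) : G1 p q b d s - G1 p q b d t ≤
      (q / (s + d) - q / (t + d)) / (1 + q / (t + d) + p / (t + b)) := by
  set T := 1 + q / (t + d) + p / (t + b) with hT
  have ht : 0 ≤ t := hs.trans hst
  have hT0 : 0 < T := by positivity
  have hda : ∀ u, 0 ≤ u → HasDerivAt (fun u => q / (u + d)) (-(q / (u + d) ^ 2)) u := by
    intro u hu
    have a3 : u + d ≠ 0 := by linarith
    have := (hasDerivAt_const u q).div ((hasDerivAt_id u).add_const d) a3
    refine this.congr_deriv ?_
    simp only [id]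
    field_simp
    ring
  have hd1 : ∀ u, 0 ≤ u → HasDerivAt (fun u => G1 p q b d u - q / (u + d) / T)
      (-(q / (u + d) ^ 2) / (1 + q / (u + d) + p / (u + b)) - -(q / (u + d) ^ 2) / T) u := by
    intro u hu
    exact (hasDerivAt_G1 hp hq hb hd hu).sub ((hda u hu).div_const T)
  have hm : MonotoneOn (fun u => G1 p q b d u - q / (u + d) / T) (Set.Icc s t) := by
    refine monotoneOn_of_deriv_nonneg (convex_Icc s t) ?_ ?_ ?_
    · intro u hu
      exact (hd1 u (hs.trans hu.1)).continuousAt.continuousWithinAt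
    · intro u hu
      have hu' := interior_subset hu
      exact (hd1 u (hs.trans hu'.1)).differentiableAt.differentiableWithinAt
    · intro u hu
      have hu' := interior_subset hu
      have hu0 : 0 ≤ u := hs.trans hu'.1
      rw [(hd1 u hu0).deriv]
      have h1 : T ≤ 1 + q / (u + d) + p / (u + b) := by
        have i1 := aux_anti q hq hd hu0 hu'.2
        have i2 := aux_anti p hp hb hu0 hu'.2
        linarith
      have h2 : 0 ≤ q / (u + d) ^ 2 := by positivity
      have h3 : q / (u + d) ^ 2 / (1 + q / (u + d) + p / (u + b)) ≤ q / (u + d) ^ 2 / T :=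
        div_le_div_of_nonneg_left h2 hT0 h1
      rw [neg_div, neg_div]
      linarith
  have := hm ⟨le_rfl, hst⟩ ⟨hst, le_rfl⟩ hst
  simp only at this
  rw [sub_div]
  linarith

theorem G1_anti (hp : 0 < p) (hq : 0 < q) (hb : 0 < b) (hd : 0 < d) {s t : ℝ} (hs : 0 ≤ s)
    (hst : s ≤ t) : G1 p q b d t ≤ G1 p q b d s := by
  have hm : AntitoneOn (G1 p q b d) (Set.Icc s t) := by
    refine antitoneOn_of_deriv_nonpos (convex_Icc s t) ?_ ?_ ?_
    · intro u hu
      exact (hasDerivAt_G1 hp hq hb hd (hs.trans hu.1)).continuousAt.continuousWithinAt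
    · intro u hu
      have hu' := interior_subset hu
      exact (hasDerivAt_G1 hp hq hb hd
        (hs.trans hu'.1)).differentiableAt.differentiableWithinAt
    · intro u hu
      have hu' := interior_subset hu
      have hu0 : 0 ≤ u := hs.trans hu'.1
      rw [(hasDerivAt_G1 hp hq hb hd hu0).deriv]
      exact div_nonpos_of_nonpos_of_nonneg (neg_nonpos.2 (by positivity)) (by positivity)
  exact hm ⟨le_rfl, hst⟩ ⟨hst, le_rfl⟩ hst

lemma log_sub_tendsto (a c : ℝ) :
    Tendsto (fun s : ℝ => Real.log (s + a) - Real.log (s + c)) atTop (𝓝 0) := by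
  have h1 : Tendsto (fun s : ℝ => (s + a) / (s + c)) atTop (𝓝 1) := by
    have h2 : Tendsto (fun s : ℝ => 1 + (a - c) / (s + c)) atTop (𝓝 (1 + 0)) :=
      tendsto_const_nhds.add (tendsto_const_nhds.div_atTop
        (tendsto_atTop_add_const_right _ c tendsto_id))
    rw [add_zero] at h2
    refine h2.congr' ?_
    filter_upwards [eventually_gt_atTop (-c)] with s hs
    have : s + c ≠ 0 := by linarith
    field_simp
    ring
  have h3 := h1.log one_ne_zero
  rw [Real.log_one] at h3
  refine h3.congr' ?_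
  filter_upwards [eventually_gt_atTop (-c), eventually_gt_atTop (-a)] with s hs hs'
  rw [Real.log_div (by linarith) (by linarith)]

theorem G1_tendsto (_hp : 0 < p) (_hq : 0 < q) (_hb : 0 < b) (_hd : 0 < d) :
    Tendsto (G1 p q b d) atTop (𝓝 0) := by
  have h1 := ((log_sub_tendsto (rt1 p q b d) d).const_mul (kk p q b d)).add
    ((log_sub_tendsto (rt2 p q b d) d).const_mul (1 - kk p q b d))
  rw [mul_zero, mul_zero, add_zero] at h1
  refine h1.congr fun s => ?_
  unfold G1
  ring

end Vale.Agent.P358
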