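import Vale.Agent.P358.K.Scal

namespace Vale.Agent.P358

open Filter Topology

variable {p q b d : ℝ}

theorem G1_nonneg (hp : 0 < p) (hq : 0 < q) (hb : 0 < b) (hd : 0 < d) {s : ℝ} (hs : 0 ≤ s) :
    0 ≤ G1 p q b d s := by
  refine le_of_tendsto (G1_tendsto hp hq hb hd) ?_
  filter_upwards [eventually_ge_atTop s] with t ht
  exact G1_anti hp hq hb hd hs ht

theorem Ph_of_pos {x : ℝ} (hx : 0 < x) : Ph p q b d x = G1 p q b d (max (q / x - d) 0) := by
  rw [Ph, if_neg (not_le.2 hx)]

theorem Ph_of_nonpos {x : ℝ} (hx : x ≤ 0) : Ph p q b d x = 0 := by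
  rw [Ph, if_pos hx]

theorem Ph_nonneg (hp : 0 < p) (hq : 0 < q) (hb : 0 < b) (hd : 0 < d) (x : ℝ) :
    0 ≤ Ph p q b d x := by
  rcases le_or_gt x 0 with h | h
  · rw [Ph_of_nonpos h]
  · rw [Ph_of_pos h]
    exact G1_nonneg hp hq hb hd (le_max_right _ _)

theorem Ph_mono (hp : 0 < p) (hq : 0 < q) (hb : 0 < b) (hd : 0 < d) : Monotone (Ph p q b d) := by
  intro x y hxy
  rcases le_or_gt x 0 with h | h
  · rw [Ph_of_nonpos h]
    exact Ph_nonneg hp hq hb hd y
  · rw [Ph_of_pos h, Ph_of_pos (h.trans_le hxy)]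
    refine G1_anti hp hq hb hd (le_max_right _ _) (max_le_max ?_ le_rfl)
    have := div_le_div_of_nonneg_left hq.le h hxy
    linarith

theorem Ph_zero (p q b d : ℝ) : Ph p q b d 0 = 0 := by
  simp [Ph]

theorem Ph_eq (_hp : 0 < p) (hq : 0 < q) (_hb : 0 < b) (hd : 0 < d) {s : ℝ} (hs : 0 ≤ s) :
    Ph p q b d (q / (s + d)) = G1 p q b d s := by
  have h1 : 0 < s + d := by linarith
  rw [Ph_of_pos (div_pos hq h1)]
  have h2 : q / (q / (s + d)) - d = s := by
    field_simp
    ring
  rw [h2, max_eq_left hs]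

/-- refined Lipschitz bound above the level `t` -/
theorem Ph_lip' (hp : 0 < p) (hq : 0 < q) (hb : 0 < b) (hd : 0 < d) {t x : ℝ} (ht : 0 ≤ t)
    (h : q / (t + d) ≤ x) :
    Ph p q b d x - Ph p q b d (q / (t + d)) ≤
      (x - q / (t + d)) / (1 + q / (t + d) + p / (t + b)) := by
  have htd : 0 < t + d := by linarith
  have hx : 0 < x := (div_pos hq htd).trans_le h
  rw [Ph_eq hp hq hb hd ht, Ph_of_pos hx]
  have hs0 : 0 ≤ max (q / x - d) 0 := le_max_right _ _
  have hst : max (q / x - d) 0 ≤ t := by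
    refine max_le ?_ ht
    have : q / x ≤ t + d := by
      rw [div_le_iff₀ hx]
      rw [div_le_iff₀ htd] at h
      linarith
    linarith
  refine (G1_sub_le hp hq hb hd hs0 hst).trans ?_
  have h1 : q / (max (q / x - d) 0 + d) ≤ x := by
    rw [div_le_iff₀ (by linarith)]
    have h2 : q / x ≤ max (q / x - d) 0 + d := by
      have := le_max_left (q / x - d) 0
      linarith
    rw [div_le_iff₀ hx] at h2
    linarith
  have h3 : 0 < 1 + q / (t + d) + p / (t + b) := by
    have : 0 < t + b := by linarith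
    positivity
  exact div_le_div_of_nonneg_right (by linarith) h3.le

theorem Ph_le_self (hp : 0 < p) (hq : 0 < q) (hb : 0 < b) (hd : 0 < d) {x : ℝ} (hx : 0 < x) :
    Ph p q b d x ≤ x := by
  have hlim : Tendsto (fun t => x + G1 p q b d t) atTop (𝓝 (x + 0)) :=
    (G1_tendsto hp hq hb hd).const_add x
  rw [add_zero] at hlim
  refine ge_of_tendsto hlim ?_
  filter_upwards [eventually_ge_atTop (q / x), eventually_ge_atTop 0] with t ht ht0
  have htd : 0 < t + d := by linarith
  have h1 : q / (t + d) ≤ x := by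
    rw [div_le_iff₀ htd]
    rw [div_le_iff₀ hx] at ht
    nlinarith
  have h2 := Ph_lip' hp hq hb hd ht0 h1
  rw [Ph_eq hp hq hb hd ht0] at h2
  have h3 : (x - q / (t + d)) / (1 + q / (t + d) + p / (t + b)) ≤ x := by
    have ha : 0 < q / (t + d) := by positivity
    have hbb : 0 < p / (t + b) := by
      have : 0 < t + b := by linarith
      positivity
    rw [div_le_iff₀ (by linarith)]
    nlinarith [mul_pos hx ha, mul_pos hx hbb]
  linarith

theorem Ph_const (_hp : 0 < p) (hq : 0 < q) (_hb : 0 < b) (hd : 0 < d) {x : ℝ} (hx : q / d ≤ x) :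
    Ph p q b d x = G1 p q b d 0 := by
  have hx0 : 0 < x := (div_pos hq hd).trans_le hx
  rw [Ph_of_pos hx0, max_eq_right]
  rw [div_le_iff₀ hd] at hx
  have : q / x ≤ d := by
    rw [div_le_iff₀ hx0]
    linarith
  linarith

theorem Ph_lip (hp : 0 < p) (hq : 0 < q) (hb : 0 < b) (hd : 0 < d) {x y : ℝ} (h : y ≤ x) :
    Ph p q b d x - Ph p q b d y ≤ x - y := by
  rcases le_or_gt y 0 with hy | hy
  · rw [Ph_of_nonpos hy]
    rcases le_or_gt x 0 with hx | hx
    · rw [Ph_of_nonpos hx]; linarith
    · have := Ph_le_self hp hq hb hd hx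
      linarith
  · rcases le_or_gt y (q / d) with hyd | hyd
    · have ht : 0 ≤ q / y - d := by
        have : d ≤ q / y := by
          rw [le_div_iff₀ hy]
          rw [le_div_iff₀ hd] at hyd
          linarith
        linarith
      have hyeq : q / (q / y - d + d) = y := by
        rw [sub_add_cancel]
        field_simp
      have h1 := Ph_lip' hp hq hb hd (x := x) ht (by rw [hyeq]; exact h)
      rw [hyeq] at h1
      refine h1.trans (div_le_self (by linarith) ?_)
      have h2 : 0 < p / (q / y - d + b) := by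
        have : 0 < q / y - d + b := by linarith
        positivity
      linarith
    · rw [Ph_const hp hq hb hd hyd.le, Ph_const hp hq hb hd (hyd.le.trans h)]
      linarith

theorem Ph_le_const (hp : 0 < p) (hq : 0 < q) (hb : 0 < b) (hd : 0 < d) (x : ℝ) :
    Ph p q b d x ≤ G1 p q b d 0 := by
  rcases le_or_gt x 0 with h | h
  · rw [Ph_of_nonpos h]
    exact G1_nonneg hp hq hb hd le_rfl
  · rw [Ph_of_pos h]
    exact G1_anti hp hq hb hd le_rfl (le_max_right _ _)

theorem G1_le_log (hp : 0 < p) (hq : 0 < q) (hb : 0 < b) (hd : 0 < d) {s : ℝ} (hs : 0 ≤ s) :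
    G1 p q b d s ≤ Real.log (1 + q / (s + d)) := by
  have hder : ∀ u : ℝ, 0 ≤ u → HasDerivAt (fun u => G1 p q b d u - Real.log (1 + q / (u + d)))
      (-(q / (u + d) ^ 2) / (1 + q / (u + d) + p / (u + b)) -
        (-(q / (u + d) ^ 2)) / (1 + q / (u + d))) u := by
    intro u hu
    have hud : u + d ≠ 0 := by linarith
    refine (hasDerivAt_G1 hp hq hb hd hu).sub ?_
    refine HasDerivAt.log ?_ ?_
    · have h1 : HasDerivAt (fun u : ℝ => u + d) 1 u := (hasDerivAt_id u).add_const d
      have h2 := (h1.fun_inv hud).const_mul q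
      have h3 := h2.const_add 1
      have e1 : (fun u : ℝ => 1 + q / (u + d)) = fun u => 1 + q * (u + d)⁻¹ := by
        ext u; rw [div_eq_mul_inv]
      have h4 : q * (-1 / (u + d) ^ 2) = -(q / (u + d) ^ 2) := by ring
      rw [h4] at h3
      rw [e1]
      exact h3
    · have : 0 < q / (u + d) := div_pos hq (by linarith)
      linarith
  have hmono : ∀ t, s ≤ t → G1 p q b d s - Real.log (1 + q / (s + d)) ≤
      G1 p q b d t - Real.log (1 + q / (t + d)) := by
    intro t hst
    have hm : MonotoneOn (fun u => G1 p q b d u - Real.log (1 + q / (u + d))) (Set.Icc s t) := by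
      refine monotoneOn_of_deriv_nonneg (convex_Icc s t) ?_ ?_ ?_
      · intro u hu
        exact (hder u (hs.trans hu.1)).continuousAt.continuousWithinAt
      · intro u hu
        rw [interior_Icc] at hu
        exact (hder u (hs.trans hu.1.le)).differentiableAt.differentiableWithinAt
      · intro u hu
        rw [interior_Icc] at hu
        have hu0 : 0 ≤ u := hs.trans hu.1.le
        rw [(hder u hu0).deriv]
        have h1 : 0 < q / (u + d) := div_pos hq (by linarith)
        have h2 : 0 < p / (u + b) := div_pos hp (by linarith)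
        have h3 : 0 ≤ q / (u + d) ^ 2 := div_nonneg hq.le (by positivity)
        have h4 : (q / (u + d) ^ 2) / (1 + q / (u + d) + p / (u + b)) ≤
            (q / (u + d) ^ 2) / (1 + q / (u + d)) :=
          div_le_div_of_nonneg_left h3 (by linarith) (by linarith)
        rw [neg_div, neg_div]
        linarith
    exact hm ⟨le_rfl, hst⟩ ⟨hst, le_rfl⟩ hst
  have hlim : Tendsto (fun t => G1 p q b d t - Real.log (1 + q / (t + d))) atTop
      (𝓝 (0 - Real.log (1 + 0))) := by
    refine (G1_tendsto hp hq hb hd).sub ?_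
    refine (Real.continuousAt_log (by norm_num)).tendsto.comp ?_
    exact tendsto_const_nhds.add (tendsto_const_nhds.div_atTop
      (tendsto_atTop_add_const_right _ _ tendsto_id))
  rw [add_zero, Real.log_one, sub_zero] at hlim
  have h5 : G1 p q b d s - Real.log (1 + q / (s + d)) ≤ 0 := by
    refine ge_of_tendsto hlim ?_
    filter_upwards [eventually_ge_atTop s] with t ht using hmono t ht
  linarith

theorem Ph_le_log (hp : 0 < p) (hq : 0 < q) (hb : 0 < b) (hd : 0 < d) {x : ℝ} (hx : 0 ≤ x) :
    Ph p q b d x ≤ Real.log (1 + x) := by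
  rcases hx.eq_or_lt with h | h
  · rw [← h, Ph_zero]
    simp
  rw [Ph_of_pos h]
  refine (G1_le_log hp hq hb hd (le_max_right _ _)).trans ?_
  have h1 : 0 ≤ max (q / x - d) 0 := le_max_right _ _
  have h2 : q / (max (q / x - d) 0 + d) ≤ x := by
    rw [div_le_iff₀ (by linarith)]
    have h3 : q / x ≤ max (q / x - d) 0 + d := by
      have := le_max_left (q / x - d) 0
      linarith
    rw [div_le_iff₀ h] at h3
    linarith
  refine Real.log_le_log ?_ (by linarith)
  have : 0 < q / (max (q / x - d) 0 + d) := div_pos hq (by linarith)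
  linarith

end Vale.Agent.P358
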