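import Vale.Agent.P358.K.ScalPh
import Vale.Agent.P358.K.LogDet

namespace Vale.Agent.P358

open Matrix Filter Topology
open scoped ComplexOrder

/-- a quadratic modulus on a half line forces monotonicity -/
theorem le_of_quad {H : ℝ → ℝ} {K : ℝ}
    (h : ∀ s t : ℝ, 0 ≤ s → s ≤ t → H t ≤ H s + K * (t - s) ^ 2) {s t : ℝ} (hs : 0 ≤ s)
    (hst : s ≤ t) : H t ≤ H s := by
  have key : ∀ n : ℕ, 0 < n → H t ≤ H s + (K * (t - s) ^ 2) / n := by
    intro n hn
    have hn' : (0 : ℝ) < n := by exact_mod_cast hn
    have hδ : 0 ≤ (t - s) / n := div_nonneg (by linarith) hn'.le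
    have step : ∀ j : ℕ, H (s + j * ((t - s) / n)) ≤ H s + j * (K * ((t - s) / n) ^ 2) := by
      intro j
      induction j with
      | zero => simp
      | succ j ih =>
        have h1 := h (s + j * ((t - s) / n)) (s + (j + 1 : ℕ) * ((t - s) / n)) (by positivity)
          (by push_cast; nlinarith)
        have h2 : (s + (j + 1 : ℕ) * ((t - s) / n)) - (s + j * ((t - s) / n)) = (t - s) / n := by
          push_cast; ring
        rw [h2] at h1
        push_cast at h1 ⊢
        linarith
    have h3 := step n
    have h4 : s + n * ((t - s) / n) = t := by field_simp; ring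
    have h5 : (n : ℝ) * (K * ((t - s) / n) ^ 2) = (K * (t - s) ^ 2) / n := by field_simp
    rwa [h4, h5] at h3
  have hlim : Tendsto (fun n : ℕ => H s + (K * (t - s) ^ 2) / n) atTop (𝓝 (H s + 0)) :=
    tendsto_const_nhds.add (tendsto_const_div_atTop_nhds_zero_nat _)
  rw [add_zero] at hlim
  refine ge_of_tendsto hlim ?_
  filter_upwards [eventually_gt_atTop 0] with n hn using key n hn

variable {m : Type} [Fintype m] [DecidableEq m]

/-- the comparison function of the truncation argument -/
noncomputable def HH {A B : Matrix m m ℂ} (hA : A.IsHermitian) (hB : B.IsHermitian)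
    (p q b d t : ℝ) : ℝ :=
  Real.log (1 + fcal hA (fun x => min x (q / (t + d))) +
    fcal hB (fun x => min x (p / (t + b)))).det.re
    - ∑ k, Ph p q b d (min (hA.eigenvalues k) (q / (t + d)))
    - ∑ k, Ph q p d b (min (hB.eigenvalues k) (p / (t + b)))

omit [Fintype m] in
theorem one_add_add_posDef {A B : Matrix m m ℂ} (hA : A.PosSemidef) (hB : B.PosSemidef) :
    (1 + A + B).PosDef := (PosDef.one.add_posSemidef hA).add_posSemidef hB

variable {p q b d : ℝ}

theorem cut_sub_le {x a a' : ℝ} (hx : a' ≤ a) : min x a - min x a' ≤ a - a' := by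
  rcases le_total x a' with h | h
  · rw [min_eq_left h, min_eq_left (h.trans hx)]; linarith
  · rw [min_eq_right h]; linarith [min_le_right x a]

theorem cut_sub_nonneg {x a a' : ℝ} (hx : a' ≤ a) : 0 ≤ min x a - min x a' := by
  have := min_le_min_left x hx
  linarith

/-- per-eigenvalue estimate -/
theorem cut_scal (hp : 0 < p) (hq : 0 < q) (hb : 0 < b) (hd : 0 < d) {s t : ℝ} (hs : 0 ≤ s)
    (hst : s ≤ t) (x : ℝ) :
    Ph p q b d (min x (q / (s + d))) - Ph p q b d (min x (q / (t + d))) ≤
      (min x (q / (s + d)) - min x (q / (t + d))) / (1 + q / (t + d) + p / (t + b)) := by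
  have ha : q / (t + d) ≤ q / (s + d) := div_le_div_of_nonneg_left hq.le (by linarith) (by linarith)
  rcases le_total x (q / (t + d)) with h | h
  · rw [min_eq_left h, min_eq_left (h.trans ha)]
    simp
  · rw [min_eq_right h]
    exact Ph_lip' hp hq hb hd (hs.trans hst) (le_min h ha)

theorem trunc_step {A B : Matrix m m ℂ} (hA : A.PosSemidef) (hB : B.PosSemidef) (hp : 0 < p)
    (hq : 0 < q) (hb : 0 < b) (hd : 0 < d) {s t : ℝ} (hs : 0 ≤ s) (hst : s ≤ t) :
    HH hA.isHermitian hB.isHermitian p q b d t ≤ HH hA.isHermitian hB.isHermitian p q b d s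
      + Fintype.card m *
        ((q / (s + d) - q / (t + d)) + (p / (s + b) - p / (t + b))) ^ 2 := by
  have ht : 0 ≤ t := hs.trans hst
  set a := q / (s + d) with ha
  set a' := q / (t + d) with ha'
  set e := p / (s + b) with he
  set e' := p / (t + b) with he'
  have haa : a' ≤ a := div_le_div_of_nonneg_left hq.le (by linarith) (by linarith)
  have hee : e' ≤ e := div_le_div_of_nonneg_left hp.le (by linarith) (by linarith)
  have ha0 : 0 < a' := by positivity
  have he0 : 0 < e' := by positivity
  have ha00 : 0 < a := by positivity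
  have he00 : 0 < e := by positivity
  set hAH := hA.isHermitian
  set hBH := hB.isHermitian
  have psdA : ∀ c, 0 ≤ c → (fcal hAH (fun x => min x c)).PosSemidef := fun c hc =>
    fcal_psd hAH fun k => le_min (hA.eigenvalues_nonneg k) hc
  have psdB : ∀ c, 0 ≤ c → (fcal hBH (fun x => min x c)).PosSemidef := fun c hc =>
    fcal_psd hBH fun k => le_min (hB.eigenvalues_nonneg k) hc
  set W := 1 + fcal hAH (fun x => min x a) + fcal hBH (fun x => min x e) with hW
  set W' := 1 + fcal hAH (fun x => min x a') + fcal hBH (fun x => min x e') with hW'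
  set E := fcal hAH (fun x => min x a - min x a') + fcal hBH (fun x => min x e - min x e') with hE
  have hWE : W - E = W' := by
    rw [hW, hW', hE, ← fcal_sub hAH, ← fcal_sub hBH]
    abel
  have hEpsd : E.PosSemidef := by
    refine (fcal_psd hAH fun k => ?_).add (fcal_psd hBH fun k => ?_)
    · exact cut_sub_nonneg haa
    · exact cut_sub_nonneg hee
  have hWpd : W.PosDef := one_add_add_posDef (psdA _ ha00.le) (psdB _ he00.le)
  have hW'pd : (W - E).PosDef := by
    rw [hWE]; exact one_add_add_posDef (psdA _ ha0.le) (psdB _ he0.le)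
  have hWl : (((1 + a + e : ℝ) : ℂ) • (1 : Matrix m m ℂ) - W).PosSemidef := by
    have h1 : (((1 + a + e : ℝ) : ℂ) • (1 : Matrix m m ℂ) - W) =
        fcal hAH (fun x => a - min x a) + fcal hBH (fun x => e - min x e) := by
      rw [hW, ← fcal_sub hAH (fun _ => a), ← fcal_sub hBH (fun _ => e), fcal_const, fcal_const]
      push_cast
      rw [add_smul, add_smul, one_smul]
      abel
    rw [h1]
    refine (fcal_psd hAH fun k => ?_).add (fcal_psd hBH fun k => ?_)
    · have := min_le_right (hAH.eigenvalues k) a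
      linarith
    · have := min_le_right (hBH.eigenvalues k) e
      linarith
  have hmain := logdet_sub hWpd hW'pd hEpsd hWl
  rw [hWE] at hmain
  have htr : E.trace.re = ∑ k, (min (hAH.eigenvalues k) a - min (hAH.eigenvalues k) a')
      + ∑ k, (min (hBH.eigenvalues k) e - min (hBH.eigenvalues k) e') := by
    rw [hE, Matrix.trace_add, Complex.add_re, fcal_trace, fcal_trace]
  have hA1 : ∑ k, Ph p q b d (min (hAH.eigenvalues k) a)
      - ∑ k, Ph p q b d (min (hAH.eigenvalues k) a') ≤
      (∑ k, (min (hAH.eigenvalues k) a - min (hAH.eigenvalues k) a')) / (1 + a' + e') := by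
    rw [← Finset.sum_sub_distrib, Finset.sum_div]
    exact Finset.sum_le_sum fun k _ => cut_scal hp hq hb hd hs hst _
  have hB1 : ∑ k, Ph q p d b (min (hBH.eigenvalues k) e)
      - ∑ k, Ph q p d b (min (hBH.eigenvalues k) e') ≤
      (∑ k, (min (hBH.eigenvalues k) e - min (hBH.eigenvalues k) e')) / (1 + a' + e') := by
    rw [← Finset.sum_sub_distrib, Finset.sum_div]
    refine Finset.sum_le_sum fun k _ => ?_
    have := cut_scal (p := q) (q := p) (b := d) (d := b) hq hp hd hb hs hst
      (hBH.eigenvalues k)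
    have h2 : 1 + a' + e' = 1 + e' + a' := by ring
    rw [h2]
    exact this
  have hsA : ∑ k, (min (hAH.eigenvalues k) a - min (hAH.eigenvalues k) a')
      ≤ Fintype.card m * (a - a') := by
    calc _ ≤ ∑ _k : m, (a - a') := Finset.sum_le_sum fun k _ => cut_sub_le haa
      _ = _ := by rw [Finset.sum_const, Finset.card_univ, nsmul_eq_mul]
  have hsB : ∑ k, (min (hBH.eigenvalues k) e - min (hBH.eigenvalues k) e')
      ≤ Fintype.card m * (e - e') := by
    calc _ ≤ ∑ _k : m, (e - e') := Finset.sum_le_sum fun k _ => cut_sub_le hee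
      _ = _ := by rw [Finset.sum_const, Finset.card_univ, nsmul_eq_mul]
  have hsA0 : 0 ≤ ∑ k, (min (hAH.eigenvalues k) a - min (hAH.eigenvalues k) a') :=
    Finset.sum_nonneg fun k _ => cut_sub_nonneg haa
  have hsB0 : 0 ≤ ∑ k, (min (hBH.eigenvalues k) e - min (hBH.eigenvalues k) e') :=
    Finset.sum_nonneg fun k _ => cut_sub_nonneg hee
  generalize hx : ∑ k, (min (hAH.eigenvalues k) a - min (hAH.eigenvalues k) a') = x at *
  generalize hy : ∑ k, (min (hBH.eigenvalues k) e - min (hBH.eigenvalues k) e') = y at *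
  -- combine
  have hkey : x / (1 + a' + e') + y / (1 + a' + e') - (x + y) / (1 + a + e) ≤
      Fintype.card m * ((a - a') + (e - e')) ^ 2 := by
    have h1 : x / (1 + a' + e') + y / (1 + a' + e') - (x + y) / (1 + a + e) =
        (x + y) * ((a - a') + (e - e')) / ((1 + a' + e') * (1 + a + e)) := by
      field_simp
      ring
    rw [h1]
    have h2 : (x + y) * ((a - a') + (e - e')) ≤ Fintype.card m * ((a - a') + (e - e')) ^ 2 := by
      nlinarith
    have h3 : 0 ≤ (x + y) * ((a - a') + (e - e')) := by
      apply mul_nonneg <;> linarith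
    refine (div_le_self h3 ?_).trans h2
    nlinarith [mul_pos ha0 ha00, mul_pos ha0 he00, mul_pos he0 ha00, mul_pos he0 he00]
  rw [htr] at hmain
  unfold HH
  rw [← ha, ← ha', ← he, ← he', ← hW, ← hW']
  linarith

theorem HH_anti {A B : Matrix m m ℂ} (hA : A.PosSemidef) (hB : B.PosSemidef) (hp : 0 < p)
    (hq : 0 < q) (hb : 0 < b) (hd : 0 < d) {s t : ℝ} (hs : 0 ≤ s) (hst : s ≤ t) :
    HH hA.isHermitian hB.isHermitian p q b d t ≤ HH hA.isHermitian hB.isHermitian p q b d s := by
  refine le_of_quad (K := Fintype.card m * (q / d ^ 2 + p / b ^ 2) ^ 2) ?_ hs hst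
  intro s t hs hst
  refine (trunc_step hA hB hp hq hb hd hs hst).trans ?_
  have h1 : ∀ {u v : ℝ}, 0 < u → 0 < v → u / (s + v) - u / (t + v) ≤ u / v ^ 2 * (t - s) := by
    intro u v hu hv
    have h2 : u / (s + v) - u / (t + v) = u * (t - s) / ((s + v) * (t + v)) := by
      have : s + v ≠ 0 := by positivity
      have : t + v ≠ 0 := by linarith
      field_simp
      ring
    rw [h2, div_mul_eq_mul_div]
    refine div_le_div_of_nonneg_left ?_ (by positivity) ?_
    · exact mul_nonneg hu.le (by linarith)
    · nlinarith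
  have h0 : ∀ {u v : ℝ}, 0 < u → 0 < v → 0 ≤ u / (s + v) - u / (t + v) := by
    intro u v hu hv
    have : u / (t + v) ≤ u / (s + v) :=
      div_le_div_of_nonneg_left hu.le (by linarith) (by linarith)
    linarith
  have h3 := h1 hq hd
  have h4 := h1 hp hb
  have h5 := h0 hq hd
  have h6 := h0 hp hb
  have h7 : (q / (s + d) - q / (t + d) + (p / (s + b) - p / (t + b))) ^ 2
      ≤ ((q / d ^ 2 + p / b ^ 2) * (t - s)) ^ 2 := by
    refine pow_le_pow_left₀ (by linarith) ?_ 2
    linarith
  have h8 : (0 : ℝ) ≤ Fintype.card m := by positivity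
  calc _ ≤ HH hA.isHermitian hB.isHermitian p q b d s +
      Fintype.card m * ((q / d ^ 2 + p / b ^ 2) * (t - s)) ^ 2 := by
        have := mul_le_mul_of_nonneg_left h7 h8
        linarith
    _ = _ := by ring

theorem HH_lower {A B : Matrix m m ℂ} (hA : A.PosSemidef) (hB : B.PosSemidef) (hp : 0 < p)
    (hq : 0 < q) (hb : 0 < b) (hd : 0 < d) {t : ℝ} (ht : 0 ≤ t) :
    -(Fintype.card m * (q / (t + d) + p / (t + b))) ≤
      HH hA.isHermitian hB.isHermitian p q b d t := by
  set a := q / (t + d) with ha
  set e := p / (t + b) with he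
  have ha0 : 0 < a := by positivity
  have he0 : 0 < e := by positivity
  set hAH := hA.isHermitian
  set hBH := hB.isHermitian
  have psdA : (fcal hAH (fun x => min x a)).PosSemidef :=
    fcal_psd hAH fun k => le_min (hA.eigenvalues_nonneg k) ha0.le
  have psdB : (fcal hBH (fun x => min x e)).PosSemidef :=
    fcal_psd hBH fun k => le_min (hB.eigenvalues_nonneg k) he0.le
  have h1 : 0 ≤ Real.log (1 + fcal hAH (fun x => min x a) + fcal hBH (fun x => min x e)).det.re := by
    have h2 := logdet_mono (W := 1 + fcal hAH (fun x => min x a) + fcal hBH (fun x => min x e))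
      (E := fcal hAH (fun x => min x a) + fcal hBH (fun x => min x e))
      (one_add_add_posDef psdA psdB) (by
        have : 1 + fcal hAH (fun x => min x a) + fcal hBH (fun x => min x e) -
          (fcal hAH (fun x => min x a) + fcal hBH (fun x => min x e)) = 1 := by abel
        rw [this]; exact PosDef.one) (psdA.add psdB)
    have h3 : 1 + fcal hAH (fun x => min x a) + fcal hBH (fun x => min x e) -
          (fcal hAH (fun x => min x a) + fcal hBH (fun x => min x e)) = 1 := by abel
    rw [h3] at h2
    simpa using h2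
  have hlin : ∀ {p q b d : ℝ}, 0 < p → 0 < q → 0 < b → 0 < d → ∀ {x c : ℝ}, 0 ≤ x → 0 ≤ c →
      Ph p q b d (min x c) ≤ c := by
    intro p q b d hp hq hb hd x c hx hc
    have h4 := Ph_lip hp hq hb hd (x := min x c) (y := 0) (le_min hx hc)
    rw [Ph_zero] at h4
    have := min_le_right x c
    linarith
  have h5 : ∑ k, Ph p q b d (min (hAH.eigenvalues k) a) ≤ Fintype.card m * a := by
    calc _ ≤ ∑ _k : m, a := Finset.sum_le_sum fun k _ =>
          hlin hp hq hb hd (hA.eigenvalues_nonneg k) ha0.le
      _ = _ := by simp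
  have h6 : ∑ k, Ph q p d b (min (hBH.eigenvalues k) e) ≤ Fintype.card m * e := by
    calc _ ≤ ∑ _k : m, e := Finset.sum_le_sum fun k _ =>
          hlin hq hp hd hb (hB.eigenvalues_nonneg k) he0.le
      _ = _ := by simp
  unfold HH
  rw [← ha, ← he]
  linarith

theorem HH_nonneg {A B : Matrix m m ℂ} (hA : A.PosSemidef) (hB : B.PosSemidef) (hp : 0 < p)
    (hq : 0 < q) (hb : 0 < b) (hd : 0 < d) :
    0 ≤ HH hA.isHermitian hB.isHermitian p q b d 0 := by
  have hlim : Tendsto (fun t : ℝ => -(Fintype.card m * (q / (t + d) + p / (t + b)))) atTop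
      (𝓝 (-(Fintype.card m * (0 + 0)))) := by
    refine (Tendsto.const_mul _ (Tendsto.add ?_ ?_)).neg
    · exact tendsto_const_nhds.div_atTop (tendsto_atTop_add_const_right _ _ tendsto_id)
    · exact tendsto_const_nhds.div_atTop (tendsto_atTop_add_const_right _ _ tendsto_id)
  rw [add_zero, mul_zero, neg_zero] at hlim
  refine le_of_tendsto hlim ?_
  filter_upwards [eventually_ge_atTop 0] with t ht
  exact (HH_lower hA hB hp hq hb hd ht).trans (HH_anti hA hB hp hq hb hd le_rfl ht)

/-- truncation lemma -/
theorem trunc_bound {m : Type} [Fintype m] [DecidableEq m] {A B : Matrix m m ℂ}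
    (hA : A.PosSemidef) (hB : B.PosSemidef) {p q b d : ℝ} (hp : 0 < p) (hq : 0 < q) (hb : 0 < b)
    (hd : 0 < d) :
    ∑ k, Ph p q b d (hA.isHermitian.eigenvalues k) + ∑ k, Ph q p d b (hB.isHermitian.eigenvalues k)
      ≤ Real.log (1 + A + B).det.re := by
  have h0 := HH_nonneg hA hB hp hq hb hd
  unfold HH at h0
  rw [zero_add, zero_add] at h0
  set hAH := hA.isHermitian
  set hBH := hB.isHermitian
  have hcut : ∀ {p q b d : ℝ}, 0 < p → 0 < q → 0 < b → 0 < d → ∀ x : ℝ,
      Ph p q b d (min x (q / d)) = Ph p q b d x := by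
    intro p q b d hp hq hb hd x
    rcases le_total x (q / d) with h | h
    · rw [min_eq_left h]
    · rw [min_eq_right h, Ph_const hp hq hb hd le_rfl, Ph_const hp hq hb hd h]
  have psdA : (fcal hAH (fun x => min x (q / d))).PosSemidef :=
    fcal_psd hAH fun k => le_min (hA.eigenvalues_nonneg k) (by positivity)
  have psdB : (fcal hBH (fun x => min x (p / b))).PosSemidef :=
    fcal_psd hBH fun k => le_min (hB.eigenvalues_nonneg k) (by positivity)
  have hsub : (1 + A + B) - (fcal hAH (fun x => x - min x (q / d)) +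
      fcal hBH (fun x => x - min x (p / b))) =
      1 + fcal hAH (fun x => min x (q / d)) + fcal hBH (fun x => min x (p / b)) := by
    rw [← fcal_sub hAH (fun x => x), ← fcal_sub hBH (fun x => x), fcal_id, fcal_id]
    abel
  have h1 := logdet_mono (W := 1 + A + B) (E := fcal hAH (fun x => x - min x (q / d)) +
      fcal hBH (fun x => x - min x (p / b))) (one_add_add_posDef hA hB) (by
        rw [hsub]; exact one_add_add_posDef psdA psdB) (by
        refine (fcal_psd hAH fun k => ?_).add (fcal_psd hBH fun k => ?_)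
        · have := min_le_left (hAH.eigenvalues k) (q / d)
          linarith
        · have := min_le_left (hBH.eigenvalues k) (p / b)
          linarith)
  rw [hsub] at h1
  simp only [hcut hp hq hb hd, hcut hq hp hd hb] at h0
  linarith

end Vale.Agent.P358
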